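import Vale.Agent.P242.H655.E4Def
import Vale.Agent.P242.H852.E6Voc
import Vale.Agent.P242.H363.Prof

/-! P242, A-TOP upper half (helper771): the sub-blocks of `Blk_H5`.

Levels as in `H655/E4Def.lean`: internal parameter `Λ` (large, NOT the `Λ` of Part B),
`t_k = (r₀ Λ^{-k})²`, `k ≥ 0`, with an arbitrary start `r₀ ∈ [ρ/M, ρ/√M]`, `M = M(A₀)` large. -/

set_option linter.all false

open MeasureTheory Filter Topology Set Metric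
open scoped ENNReal NNReal InnerProductSpace

universe u

namespace Vale.Agent.P242.H771

open Vale.Agent.P233 Vale.Agent.P233.RA Vale.Agent.P242.H990 Vale.Agent.P242.H71
open Vale.Agent.P242.H655
open Vale.Agent.P242.H852 (tl ws)

/-! ### quantifiers -/

/-- outer quantifiers: `Q`, then `R`, then `Λ` large -/
def EvO (Φ : (Q R Λ : ℝ) → Prop) : Prop :=
  ∃ Q₀, 1 ≤ Q₀ ∧ ∀ Q, Q₀ ≤ Q → ∃ R₀, 1 ≤ R₀ ∧ ∀ R, R₀ ≤ R → ∃ Λ₀, 16 ≤ Λ₀ ∧ ∀ Λ, Λ₀ ≤ Λ → Φ Q R Λ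

/-- inner quantifiers: `A₀ ≤ ε₁`, then `M` large, then `η₁`, then `ε ≤ ε₁`, `η, δ, ρ ≤ η₁` -/
def EvI (Ψ : (A₀ M' ε η δ ρ : ℝ) → Prop) : Prop :=
  ∃ ε₁, 0 < ε₁ ∧ ∀ A₀, 0 < A₀ → A₀ ≤ ε₁ → ∃ M₀, 1 ≤ M₀ ∧ ∀ M', M₀ ≤ M' → ∃ η₁, 0 < η₁ ∧
    ∀ ε η δ ρ, 0 < ε → ε ≤ ε₁ → 0 < η → η ≤ η₁ → δ ≤ η₁ → ρ ≤ η₁ → Ψ A₀ M' ε η δ ρ

theorem EvO.mono {Φ Φ' : ℝ → ℝ → ℝ → Prop} (h : EvO Φ) (hi : ∀ Q R Λ, Φ Q R Λ → Φ' Q R Λ) :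
    EvO Φ' := by
  obtain ⟨a, ha, h⟩ := h
  refine ⟨a, ha, fun Q hQ => ?_⟩
  obtain ⟨b, hb, h⟩ := h Q hQ
  refine ⟨b, hb, fun R hR => ?_⟩
  obtain ⟨c, hc, h⟩ := h R hR
  exact ⟨c, hc, fun Λ hΛ => hi _ _ _ (h Λ hΛ)⟩

theorem EvO.and {Φ Φ' : ℝ → ℝ → ℝ → Prop} (h : EvO Φ) (h' : EvO Φ') :
    EvO fun Q R Λ => Φ Q R Λ ∧ Φ' Q R Λ := by
  obtain ⟨a, ha, h⟩ := h
  obtain ⟨a', ha', h'⟩ := h'
  refine ⟨max a a', le_max_of_le_left ha, fun Q hQ => ?_⟩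
  obtain ⟨b, hb, h⟩ := h Q (le_trans (le_max_left _ _) hQ)
  obtain ⟨b', hb', h'⟩ := h' Q (le_trans (le_max_right _ _) hQ)
  refine ⟨max b b', le_max_of_le_left hb, fun R hR => ?_⟩
  obtain ⟨c, hc, h⟩ := h R (le_trans (le_max_left _ _) hR)
  obtain ⟨c', hc', h'⟩ := h' R (le_trans (le_max_right _ _) hR)
  exact ⟨max c c', le_max_of_le_left hc, fun Λ hΛ => ⟨h Λ (le_trans (le_max_left _ _) hΛ),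
    h' Λ (le_trans (le_max_right _ _) hΛ)⟩⟩

/-- thresholds for `Q`, `R`, `Λ` -/
theorem EvO.thr (a : ℝ) (b : ℝ → ℝ) (c : ℝ → ℝ → ℝ) :
    EvO fun Q R Λ => (1 ≤ Q ∧ a ≤ Q) ∧ (1 ≤ R ∧ b Q ≤ R) ∧ (16 ≤ Λ ∧ c Q R ≤ Λ) :=
  ⟨max a 1, le_max_right _ _, fun Q hQ => ⟨max (b Q) 1, le_max_right _ _, fun R hR =>
    ⟨max (c Q R) 16, le_max_right _ _, fun Λ hΛ =>
      ⟨⟨(le_max_right _ _).trans hQ, (le_max_left _ _).trans hQ⟩,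
        ⟨(le_max_right _ _).trans hR, (le_max_left _ _).trans hR⟩,
        ⟨(le_max_right _ _).trans hΛ, (le_max_left _ _).trans hΛ⟩⟩⟩⟩⟩

theorem EvI.mono {Ψ Ψ' : ℝ → ℝ → ℝ → ℝ → ℝ → ℝ → Prop} (h : EvI Ψ)
    (hi : ∀ A₀ M' ε η δ ρ, Ψ A₀ M' ε η δ ρ → Ψ' A₀ M' ε η δ ρ) : EvI Ψ' := by
  obtain ⟨a, ha, h⟩ := h
  refine ⟨a, ha, fun A₀ h0 h1 => ?_⟩
  obtain ⟨b, hb, h⟩ := h A₀ h0 h1
  refine ⟨b, hb, fun M' hM => ?_⟩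
  obtain ⟨c, hc, h⟩ := h M' hM
  exact ⟨c, hc, fun ε η δ ρ h1 h2 h3 h4 h5 h6 => hi _ _ _ _ _ _ (h ε η δ ρ h1 h2 h3 h4 h5 h6)⟩

theorem EvI.and {Ψ Ψ' : ℝ → ℝ → ℝ → ℝ → ℝ → ℝ → Prop} (h : EvI Ψ) (h' : EvI Ψ') :
    EvI fun A₀ M' ε η δ ρ => Ψ A₀ M' ε η δ ρ ∧ Ψ' A₀ M' ε η δ ρ := by
  obtain ⟨a, ha, h⟩ := h
  obtain ⟨a', ha', h'⟩ := h'
  refine ⟨min a a', lt_min ha ha', fun A₀ h0 h1 => ?_⟩
  obtain ⟨b, hb, h⟩ := h A₀ h0 (h1.trans (min_le_left _ _))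
  obtain ⟨b', hb', h'⟩ := h' A₀ h0 (h1.trans (min_le_right _ _))
  refine ⟨max b b', le_max_of_le_left hb, fun M' hM => ?_⟩
  obtain ⟨c, hc, h⟩ := h M' ((le_max_left _ _).trans hM)
  obtain ⟨c', hc', h'⟩ := h' M' ((le_max_right _ _).trans hM)
  refine ⟨min c c', lt_min hc hc', fun ε η δ ρ h1 h2 h3 h4 h5 h6 => ⟨?_, ?_⟩⟩
  · exact h ε η δ ρ h1 (h2.trans (min_le_left _ _)) h3 (h4.trans (min_le_left _ _))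
      (h5.trans (min_le_left _ _)) (h6.trans (min_le_left _ _))
  · exact h' ε η δ ρ h1 (h2.trans (min_le_right _ _)) h3 (h4.trans (min_le_right _ _))
      (h5.trans (min_le_right _ _)) (h6.trans (min_le_right _ _))

/-- thresholds: `A₀, ε ≤ a`, `b A₀ ≤ M`, `η, δ, ρ ≤ c A₀ M` -/
theorem EvI.thr {a : ℝ} (ha : 0 < a) (b : ℝ → ℝ) {c : ℝ → ℝ → ℝ}
    (hc : ∀ A₀ M', 0 < A₀ → 1 ≤ M' → 0 < c A₀ M') :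
    EvI fun A₀ M' ε η δ ρ => (0 < A₀ ∧ A₀ ≤ a) ∧ (1 ≤ M' ∧ b A₀ ≤ M') ∧ (0 < ε ∧ ε ≤ a) ∧
      (0 < η ∧ η ≤ c A₀ M') ∧ δ ≤ c A₀ M' ∧ ρ ≤ c A₀ M' :=
  ⟨a, ha, fun A₀ h0 h1 => ⟨max (b A₀) 1, le_max_right _ _, fun M' hM =>
    ⟨c A₀ M', hc A₀ M' h0 ((le_max_right _ _).trans hM), fun ε η δ ρ h2 h3 h4 h5 h6 h7 =>
      ⟨⟨h0, h1⟩, ⟨(le_max_right _ _).trans hM, (le_max_left _ _).trans hM⟩, ⟨h2, h3⟩, ⟨h4, h5⟩,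
        h6, h7⟩⟩⟩⟩

/-- `Φ` holds for all configurations in the range of parameters of `Blk_H5`; the constant `B`
depends on `Q, R, Λ` only. -/
def Sub {M : Type u} [MetricSpace M] [MeasurableSpace M] [BorelSpace M] (m : Measure M) (n : ℕ)
    (K : ℝ) (o : M) (p : ℝ → M → M → ℝ)
    (Φ : (Q R Λ B A₀ M' ε η δ ρ : ℝ) → (Fin n → M →ₘ[m] ℝ) → (M → E n) → Prop) : Prop :=
  EvO fun Q R Λ => ∃ B, 1 ≤ B ∧ EvI fun A₀ M' ε η δ ρ => ∀ (u : Fin n → M →ₘ[m] ℝ) (uu : M → E n),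
    Cfg m n K o p R Q η ρ u uu → DropS m n K o p R Q δ ρ → TT m K o p (R / 2) Q ε ρ u →
      Φ Q R Λ B A₀ M' ε η δ ρ u uu

/-! ### levels: `H852.tl r₀ Λ k = (r₀ Λ^{-k})²` -/

/-- `𝔫'_t(v) = √(N^{3/8}_t(v) + D_t G_t(v))`, so that `xE = √D · nE` -/
noncomputable def nE {M : Type u} [MetricSpace M] [MeasurableSpace M] (m : Measure M) {n : ℕ}
    (K : ℝ) (p : ℝ → M → M → ℝ) (u : Fin n → M →ₘ[m] ℝ) (Q A₀ ρ t : ℝ) (y : M) (v : E n) : ℝ :=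
  √(Nt m K p u Q A₀ ρ (3 / 8) t y v v + Dt m n K p Q A₀ ρ t y * Gm m p u t y v v)

/-! ### the statements at a vertex -/

section vertex

variable {M : Type u} [MetricSpace M] [MeasurableSpace M]

/-- (E1), at the vertex `y` and the time `t` -/
structure E1At (m : Measure M) (n : ℕ) (K : ℝ) (p : ℝ → M → M → ℝ) (Q A₀ ρ B t : ℝ) (y : M) :
    Prop where
  mu : PP m p t y |(n : ℝ) • 1 - (sob m).lap (bb m y t)| ≤ B * Dt m n K p Q A₀ ρ t y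
  q : PP m p t y |(sob m).Γ (bb m y t) (bb m y t) - (2 : ℝ) • (bb m y t + (1 / 2 - n * t) • 1)|
    ≤ B * (t * Dt m n K p Q A₀ ρ t y)
  qq : QQ m n K p t y (bb m y t) (bb m y t) ≤ B * Dt m n K p Q A₀ ρ t y

/-- the vertex `y` and the level `t`, after (A-bound) and (E6'); `A = 𝒜 k` of `E4Out` -/
structure VxAt (m : Measure M) {n : ℕ} (K : ℝ) (p : ℝ → M → M → ℝ) (u : Fin n → M →ₘ[m] ℝ)
    (Q A₀ ρ B θ t : ℝ) (y : M) (A : E n →ₗ[ℝ] E n) : Prop where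
  small : Dt m n K p Q A₀ ρ t y ≤ θ
  anti : ∀ v w : E n, |Gm m p u t y (A v) w - Gm m p u t y v (A w)|
    ≤ B * (√(Dt m n K p Q A₀ ρ t y) * (nE m K p u Q A₀ ρ t y v * nG m p u t y w
        + nE m K p u Q A₀ ρ t y w * nG m p u t y v))
      + B * (√θ * (nG m p u t y (A v) * nE m K p u Q A₀ ρ t y w
        + nG m p u t y (A w) * nE m K p u Q A₀ ρ t y v))
  bd : ∀ v : E n, nG m p u t y (A v) ≤ B * (√θ * nE m K p u Q A₀ ρ t y v)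
  e6 : ∀ v : E n, Nt m K p u Q A₀ ρ (1 / 4) t y v v
    ≤ B * (t * gm m K p u t y v v + Dt m n K p Q A₀ ρ t y * Gm m p u t y v v)

/-- (R1), (R2) at the centre `x` with the vertex `q`, `t = t_k`, `t' = Λ² t = t_{k-1}` -/
structure RRAt (m : Measure M) {n : ℕ} (K : ℝ) (p : ℝ → M → M → ℝ) (u : Fin n → M →ₘ[m] ℝ)
    (Λ Q A₀ ρ B t : ℝ) (x q : M) (c : E n) (c₀ : ℝ) : Prop where
  r1 : PP m p (Λ ^ 2 * t) x |bb m q (Λ ^ 2 * t) - bb m x (Λ ^ 2 * t) - c₀ • 1 - uc u c|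
    ≤ B * (t * √(Dt m n K p Q A₀ ρ t x + Dt m n K p Q A₀ ρ t q))
  r1' : PP m p (Λ ^ 2 * t) x |bb m q (Λ ^ 2 * t) - bb m x (Λ ^ 2 * t)
      - (cl m (ww (1 / 2) q) - cl m (ww (1 / 2) x))|
    ≤ B * (t * (Dt m n K p Q A₀ ρ t x + Dt m n K p Q A₀ ρ t q))
  r2 : ∀ s, t / Λ ^ 2 ≤ s → s ≤ t → gm m K p u s x c c
    ≤ B * (Dt m n K p Q A₀ ρ t x + Dt m n K p Q A₀ ρ t q)

/-- the radial weights at the vertex `y` and the time `t` (helper363, helper937): profile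
`H363.psi`, `H363.Xi` of `b'/t`; dominating weight `w = √t^n p_t(y,·)` -/
structure WAt (m : Measure M) (n : ℕ) (p : ℝ → M → M → ℝ) (a L₁ t : ℝ) (y : M)
    (P0 P1 P2 X0 : M →ₘ[m] ℝ) : Prop where
  rp : H363.RP (sob m) (bb m y t) P0 P1 P2
  wb : H363.WB P0 P1 P2 (√t ^ n • ph m p t y) a √t
  xA : X0 ∈ (sob m).A
  xG : ∀ h ∈ (sob m).W, (sob m).Γ X0 h = -(P0 * (sob m).Γ (bb m y t) h)
  xw : ∀ᵐ x ∂m, |X0 x| ≤ a * √t ^ 2 * (√t ^ n • ph m p t y : M →ₘ[m] ℝ) x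
  x0 : 0 ≤ X0
  eq : ∀ᵐ x ∂m, P0 x = H363.psi ((bb m y t x + (1 / 2 - n * t)) / t) ∧
    X0 x = t * H363.Xi ((bb m y t x + (1 / 2 - n * t)) / t)
  supp : ∀ᵐ x ∂m, (P0 x ≠ 0 ∨ P1 x ≠ 0 ∨ P2 x ≠ 0 ∨ X0 x ≠ 0) → dist y x < L₁ * √t
  v_le : I P0 ≤ a * √t ^ n
  v_ge : √t ^ n ≤ a * I P0

end vertex

/-! ### the sub-blocks -/

section blocks

variable {M : Type u} [MetricSpace M] [MeasurableSpace M] [BorelSpace M]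

/-- A-E1 (helper254): (E1) at all vertices of `ball o (R ρ / 2)` and all `t ≤ ρ²`. -/
def SB_E1 (m : Measure M) (n : ℕ) (K : ℝ) (o : M) (p : ℝ → M → M → ℝ) : Prop :=
  Sub m n K o p fun Q R Λ B A₀ M' ε η δ ρ u uu => ∀ y ∈ ball o (R / 2 * ρ), ∀ t, 0 < t →
    t ≤ ρ ^ 2 → E1At m n K p Q A₀ ρ B t y

/-- A-RAD, A-GL1 (helper363, helper937): the radial weights, GL1-b, GL1-c and (K); `P_k(v) =
t_k^{-n/2} NN(u_v,u_v; X0)` -/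
def SB_W (m : Measure M) (n : ℕ) (K : ℝ) (o : M) (p : ℝ → M → M → ℝ) : Prop :=
  Sub m n K o p fun Q R Λ B A₀ M' ε η δ ρ u uu => ∀ y ∈ ball o (R / 4 * ρ),
    ∃ P0 P1 P2 X0 : ℝ → M →ₘ[m] ℝ,
      (∀ t, 0 < t → t ≤ ρ ^ 2 / M' → WAt m n p B B t y (P0 t) (P1 t) (P2 t) (X0 t) ∧
        /- GL1-b -/
        (∀ c c' : E n, |I (P0 t * (sob m).Γ (uc u c) (uc u c')) - I (P0 t) * Gm m p u t y c c'|
          ≤ B * (√t ^ n * (√(Nt m K p u Q A₀ ρ (3 / 8) t y c c) *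
            √(Nt m K p u Q A₀ ρ (3 / 8) t y c' c')))) ∧
        /- GL1-c -/
        |I (P0 t) / √t ^ n - I (P0 (t / Λ ^ 2)) / √(t / Λ ^ 2) ^ n|
          ≤ B * √(Dt m n K p Q A₀ ρ t y)) ∧
      /- (K), the shape of `H852.E6In` -/
      ∀ r₀, ρ / M' ≤ r₀ → r₀ ≤ ρ / √M' → ∀ (j : ℕ) (v : E n) (s : ℝ), tl r₀ Λ (j + 1) ≤ s →
        s ≤ tl r₀ Λ j → tl r₀ Λ (j + 1) * gm m K p u s y v v ≤
          B * (ws (Λ ^ (-(1 / 2) : ℝ) / 2) (fun i =>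
              (sob m).NN (-|K|) (uc u v) (uc u v) (X0 (tl r₀ Λ i)) / √(tl r₀ Λ i) ^ n) (j + 1) +
            A₀ * (tl r₀ Λ 0 / ρ ^ 2) ^ (1 / 8 : ℝ) * (Λ ^ (-(1 / 2) : ℝ) / 2) ^ (j + 1) *
              Gm m p u (tl r₀ Λ (j + 1)) y v v)

/-- A-E4 (helper655, helper924) -/
def SB_E4 (m : Measure M) (n : ℕ) (K : ℝ) (o : M) (p : ℝ → M → M → ℝ) : Prop :=
  Sub m n K o p fun Q R Λ B A₀ M' ε η δ ρ u uu => ∀ y ∈ ball o (R / 4 * ρ), ∀ r₀, ρ / M' ≤ r₀ →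
    r₀ ≤ ρ / √M' → ∃ (𝒜 : ℕ → E n →ₗ[ℝ] E n) (cc : ℕ → E n → ℝ),
      E4Out m K p u uu Q A₀ Λ B ρ r₀ y 𝒜 cc

/-- the vertex statement (helper771 with helper852, helper363, helper937): `B` does not depend on
`θ`, the thresholds do. -/
def SB_Vx (m : Measure M) (n : ℕ) (K : ℝ) (o : M) (p : ℝ → M → M → ℝ) : Prop :=
  EvO fun Q R Λ => ∃ B, 1 ≤ B ∧ ∀ θ, 0 < θ → EvI fun A₀ M' ε η δ ρ =>
    ∀ (u : Fin n → M →ₘ[m] ℝ) (uu : M → E n),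
    Cfg m n K o p R Q η ρ u uu → DropS m n K o p R Q δ ρ → TT m K o p (R / 2) Q ε ρ u →
      ∀ y ∈ ball o (R / 4 * ρ), ∀ r₀, ρ / M' ≤ r₀ → r₀ ≤ ρ / √M' →
        ∃ (𝒜 : ℕ → E n →ₗ[ℝ] E n) (cc : ℕ → E n → ℝ), E4Out m K p u uu Q A₀ Λ B ρ r₀ y 𝒜 cc ∧
          ∀ k, VxAt m K p u Q A₀ ρ B θ (tl r₀ Λ k) y (𝒜 k)

/-- A-T7, first part (helper196): (R1), (R2) for `t ≤ ρ²/M`. -/
def SB_RR (m : Measure M) (n : ℕ) (K : ℝ) (o : M) (p : ℝ → M → M → ℝ) : Prop :=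
  ∀ C₀, 1 ≤ C₀ → Sub m n K o p fun Q R Λ B A₀ M' ε η δ ρ u uu => ∀ x ∈ ball o (R / 4 * ρ),
    ∀ q ∈ ball o (R / 4 * ρ), ∀ t, 0 < t → t ≤ ρ ^ 2 / M' → dist x q ≤ C₀ * √t →
      ∃ (c : E n) (c₀ : ℝ), RRAt m K p u Λ Q A₀ ρ B t x q c c₀

/-- A-GL2 (helper448, helper200): the relation between the affine part `c` of `b_q - b_x` and
`c' = G⁻¹(u(x) - u(q))`; `𝒜q` are the matrices at the vertex `q`; `t = t_k`, `k ≥ 1`. -/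
def SB_Rel (m : Measure M) (n : ℕ) (K : ℝ) (o : M) (p : ℝ → M → M → ℝ) : Prop :=
  ∀ C₀, 1 ≤ C₀ → EvO fun Q R Λ => ∀ B₁, 1 ≤ B₁ → ∃ B, 1 ≤ B ∧ EvI fun A₀ M' ε η δ ρ =>
    ∀ (u : Fin n → M →ₘ[m] ℝ) (uu : M → E n),
    Cfg m n K o p R Q η ρ u uu → DropS m n K o p R Q δ ρ → TT m K o p (R / 2) Q ε ρ u →
    ∀ x ∈ ball o (R / 4 * ρ), ∀ q ∈ ball o (R / 4 * ρ), ∀ r₀, ρ / M' ≤ r₀ → r₀ ≤ ρ / √M' →
    ∀ k, 1 ≤ k → dist x q ≤ C₀ * rr r₀ Λ k →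
    ∀ (c : E n) (c₀ : ℝ), RRAt m K p u Λ Q A₀ ρ B₁ (tl r₀ Λ k) x q c c₀ →
      ∀ (𝒜x 𝒜q : ℕ → E n →ₗ[ℝ] E n) (cx cq : ℕ → E n → ℝ),
        E4Out m K p u uu Q A₀ Λ B₁ ρ r₀ x 𝒜x cx → E4Out m K p u uu Q A₀ Λ B₁ ρ r₀ q 𝒜q cq →
      ∀ c' : E n, (∀ w : E n, Gm m p u (tl r₀ Λ k) x c' w = ⟪w, uu x - uu q⟫_ℝ) →
      ∀ v : E n, |Gm m p u (tl r₀ Λ k) x c v - Gm m p u (tl r₀ Λ k) x c' v
          - Gm m p u (tl r₀ Λ k) x c' (𝒜q k v)|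
        ≤ B * (rr r₀ Λ k * (√(Dt m n K p Q A₀ ρ (tl r₀ Λ k) x + Dt m n K p Q A₀ ρ (tl r₀ Λ k) q)
          * nG m p u (tl r₀ Λ k) x v))

/-- (h5) at the levels: the output of the pair argument (helper100, helper200) -/
def SB_H5 (m : Measure M) (n : ℕ) (K : ℝ) (o : M) (p : ℝ → M → M → ℝ) : Prop :=
  ∀ C₀, 1 ≤ C₀ → Sub m n K o p fun Q R Λ B A₀ M' ε η δ ρ u uu => ∀ x ∈ ball o (R / 4 * ρ),
    ∀ q ∈ ball o (R / 4 * ρ), ∀ r₀, ρ / M' ≤ r₀ → r₀ ≤ ρ / √M' → ∀ k, 1 ≤ k →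
    dist x q ≤ C₀ * rr r₀ Λ k →
    ∀ c' : E n, (∀ w : E n, Gm m p u (tl r₀ Λ k) x c' w = ⟪w, uu x - uu q⟫_ℝ) →
      Nt m K p u Q A₀ ρ (1 / 4) (tl r₀ Λ k) x c' c' ≤ B * (tl r₀ Λ k *
        (Dt m n K p Q A₀ ρ (tl r₀ Λ k) x + Dt m n K p Q A₀ ρ (tl r₀ Λ k) q))

end blocks

end Vale.Agent.P242.H771
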