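import Vale.Agent.P242.H771.Gin
import Vale.Agent.P242.H852.Vx

/-! P242, GL1-d (helper771): `SB_GOut`, the output of GL1-d in the shape of `H852.E6In`. -/

set_option linter.all false

open MeasureTheory Filter Topology Set Metric
open scoped ENNReal NNReal InnerProductSpace

universe u

namespace Vale.Agent.P242.H771

open Vale.Agent.P233 Vale.Agent.P233.RA Vale.Agent.P242.H990 Vale.Agent.P242.H71
open Vale.Agent.P242.H655

variable {M : Type u} [MetricSpace M] [CompleteSpace M] [SecondCountableTopology M]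
  [MeasurableSpace M] [BorelSpace M] {m : Measure M} {n : ℕ} {K A : ℝ} {o : M} {p : ℝ → M → M → ℝ}
  {R Q η ρ A₀ B L₁ ε t : ℝ} {u : Fin n → M →ₘ[m] ℝ} {uu : M → E n} {y : M}
  {P0 P1 P2 X0 : M →ₘ[m] ℝ} {𝒜 : E n →ₗ[ℝ] E n} {cc : E n → ℝ}

theorem GIn.out (g : GIn m K o p u uu R Q A₀ η ρ B L₁ ε t y P0 P1 P2 X0 𝒜 cc)
    (h : Env m n K o A p) (hu : Cfg m n K o p R Q η ρ u uu) (hy : y ∈ ball o (R * ρ)) :
    H852.GOut m K p u Q A₀ ρ (cG n K B L₁ + B ^ 2) ε t y P0 X0 𝒜 := by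
  have hB1 := g.B1
  have hc := cG_ge (n := n) (K := K) g.B1 g.L1
  have hC1 : cG n K B L₁ ≤ cG n K B L₁ + B ^ 2 := by nlinarith [sq_nonneg B]
  have hC2 : B ^ 2 ≤ cG n K B L₁ + B ^ 2 := by linarith
  have hC3 : B ≤ cG n K B L₁ + B ^ 2 := by nlinarith
  have nE0 : ∀ v, 0 ≤ nE m K p u Q A₀ ρ t y v := fun v => Real.sqrt_nonneg _
  have nG0 : ∀ v, 0 ≤ nG m p u t y v := fun v => Real.sqrt_nonneg _
  have sD := Real.sqrt_nonneg (Dt m n K p Q A₀ ρ t y)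
  have sε := Real.sqrt_nonneg ε
  refine ⟨fun v w => ?_, fun v => ?_, g.Pnn h hu, fun v => ?_, fun v => ?_⟩
  · refine (g.anti h hu v w).trans (add_le_add ?_ ?_)
    · rw [mul_assoc]
      refine mul_le_mul_of_nonneg_right hC1 (mul_nonneg sD (add_nonneg (mul_nonneg (nE0 v) (nG0 w))
        (mul_nonneg (nE0 w) (nG0 v))))
    · rw [mul_assoc]
      exact mul_le_mul_of_nonneg_right hC2 (mul_nonneg sε (add_nonneg
        (mul_nonneg (nG0 (𝒜 v)) (nE0 w)) (mul_nonneg (nG0 (𝒜 w)) (nE0 v))))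
  · refine (g.MM h hu hy v).trans ?_
    have e1 : √(Dt m n K p Q A₀ ρ t y) * nE m K p u Q A₀ ρ t y v * nG m p u t y v
        + √ε * nG m p u t y (𝒜 v) * nE m K p u Q A₀ ρ t y v
        = √(Dt m n K p Q A₀ ρ t y) * (nE m K p u Q A₀ ρ t y v * nG m p u t y v)
        + √ε * (nG m p u t y (𝒜 v) * nE m K p u Q A₀ ρ t y v) := by ring
    rw [e1]
    exact mul_le_mul_of_nonneg_right hC1 (add_nonneg (mul_nonneg sD (mul_nonneg (nE0 v) (nG0 v)))
      (mul_nonneg sε (mul_nonneg (nG0 (𝒜 v)) (nE0 v))))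
  · exact (g.Ple' h hu v).trans (mul_le_mul_of_nonneg_right hC2 (sq_nonneg _))
  · exact (g.Ple h hu v).trans (mul_le_mul_of_nonneg_right hC3 (mul_nonneg g.t0.le (g.g0 v)))

/-- **GL1-d** -/
theorem sb_gout (h : Env m n K o A p) : H852.SB_GOut m n K o p := by
  have key := EvO.and (gin_ev h) (EvO.thr 0 (fun _ => 0) (fun _ _ => 0))
  refine key.mono ?_
  rintro Q R Λ ⟨hg, -, ⟨hR1, -⟩, -⟩ B₁ hB₁
  obtain ⟨i1, -, -⟩ := cI_ge (n := n) h.kb.one_le (B₁ := B₁)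
  have hc := cG_ge (n := n) (K := K) (hB₁.trans i1) hB₁
  refine ⟨cG n K (cI n A B₁) B₁ + cI n A B₁ ^ 2, by nlinarith [sq_nonneg (cI n A B₁)],
    fun ε hε => ?_⟩
  refine (hg B₁ hB₁ ε hε).mono ?_
  intro A₀ M' ε' η δ ρ hΨ u uu hu hD hT y hy t ht htM P0 P1 P2 X0 hW hglb hE1 𝒜 cc herr
  have hρ := hu.ρ_pos
  refine (hΨ u uu hu hD hT y hy t ht htM P0 P1 P2 X0 hW hglb hE1 𝒜 cc herr).out h hu ?_
  exact ball_subset_ball (by nlinarith) hy

end Vale.Agent.P242.H771
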