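import Vale.Agent.P242.H771.Gout
import Vale.Agent.P242.H200.H5Top
import Vale.Agent.P242.H100.H5
import Vale.Agent.P242.H937.SBW
import Vale.Agent.P242.H254.E1m
import Vale.Agent.P242.H597.PreX
import Vale.Agent.P242.H703.HfL

/-! P242, A-TOP upper half (helper771): `SB_Vx` and `Blk_H5` from the blocks `SB_E4`, `SB_RR`,
`SB_Rel`. -/

set_option linter.all false

open MeasureTheory Filter Topology Set Metric
open scoped ENNReal NNReal InnerProductSpace

universe u

namespace Vale.Agent.P242.H771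

open Vale.Agent.P233 Vale.Agent.P233.RA Vale.Agent.P242.H990 Vale.Agent.P242.H71

section one

variable {M : Type u} [MetricSpace M] [CompleteSpace M] [SecondCountableTopology M]
  [MeasurableSpace M] [BorelSpace M] {m : Measure M} {n : ℕ} {K A : ℝ} {o : M} {p : ℝ → M → M → ℝ}

/-- radial weights, GL1-b, GL1-c, (K) -/
theorem sb_W (h : Env m n K o A p) : SB_W m n K o p := H937.sb_w h (H254.sb_E1 h)

/-- the vertex statement from A-E4 -/
theorem sb_Vx (h : Env m n K o A p) (hE4 : SB_E4 m n K o p) : SB_Vx m n K o p :=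
  H852.sb_vx_of h (H254.sb_E1 h) (sb_W h) hE4 (sb_gout h)

/-- (h5) at the levels from A-E4, (R1), (R2) and the relation of the affine parts -/
theorem sb_H5 (h : Env m n K o A p) (hE4 : SB_E4 m n K o p) (hRR : SB_RR m n K o p)
    (hRel : SB_Rel m n K o p) : SB_H5 m n K o p :=
  H100.sb_h5 H597.blk_near.{u} H703.blk_H234.{u} h (sb_Vx h hE4) hRR hRel

end one

/-- **`Blk_H5`** from `SB_E4`, `SB_RR`, `SB_Rel`. -/
theorem blk_H5_of3
    (hE4 : ForM.{u} fun M _ _ _ => ∀ (m : Measure M) (n : ℕ) (K : ℝ) (o : M) (A : ℝ)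
      (p : ℝ → M → M → ℝ), Env m n K o A p → SB_E4 m n K o p)
    (hRR : ForM.{u} fun M _ _ _ => ∀ (m : Measure M) (n : ℕ) (K : ℝ) (o : M) (A : ℝ)
      (p : ℝ → M → M → ℝ), Env m n K o A p → SB_RR m n K o p)
    (hRel : ForM.{u} fun M _ _ _ => ∀ (m : Measure M) (n : ℕ) (K : ℝ) (o : M) (A : ℝ)
      (p : ℝ → M → M → ℝ), Env m n K o A p → SB_Rel m n K o p) : H71.Blk_H5.{u} :=
  H200.blk_H5_of fun M _ _ _ _ _ m n K o A p h =>
    sb_H5 h (hE4 M m n K o A p h) (hRR M m n K o A p h) (hRel M m n K o A p h)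

end Vale.Agent.P242.H771
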