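import Vale.Agent.P242.H771.UB
import Vale.Agent.P242.H363.Prof
import Vale.Agent.P242.H597.EnvB

/-! P242, GL1-d (helper771): the almost antisymmetry of `𝒜 k` and the estimate (M), from the
radial estimates (helper363), the expansion (E4) (helper655), GL1-b (helper937) and (E1). -/

set_option linter.all false

open MeasureTheory Filter Topology Set Metric
open scoped ENNReal NNReal InnerProductSpace

universe u

namespace Vale.Agent.P242.H771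

open Vale.Agent.P233 Vale.Agent.P233.RA Vale.Agent.P242.H990 Vale.Agent.P242.H71
open Vale.Agent.P242.H655

section e6

variable {M : Type*} [MeasurableSpace M] {m : Measure M} {C : Calc m}
variable (hC : IsGamma C) {K n c0 : ℝ}
variable {b u P0 P1 P2 X0 μ q e w u' : M →ₘ[m] ℝ} {a r L B ℓ c : ℝ}
include hC

/-- `H363.est_MM` with an integral hypothesis instead of a pointwise bound of `⟨∇u,∇Δu⟩` -/
theorem est_MM' (hn : 0 < n) (hBE : C.BE K n) (hb : b ∈ C.TestI)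
    (hP : H363.RP C b P0 P1 P2)
    (hu : u ∈ C.TestI) (hw : w ∈ C.A)
    (hμ : C.lap b = n • 1 - μ) (hq : C.Γ b b = (2 : ℝ) • (b + c0 • 1) + q)
    (hW : H363.WB P0 P1 P2 w a r) (hU : H363.UB C b u P0 P1 P2 r L B ℓ c)
    (hX : X0 ∈ C.A) (hXΓ : ∀ h ∈ C.W, C.Γ X0 h = -(P0 * C.Γ b h))
    (hXw : ∀ᵐ x ∂m, |X0 x| ≤ a * r ^ 2 * w x)
    (hX1 : ∀ᵐ x ∂m, X0 x ≠ 0 → C.Γ u u x ≤ L ^ 2)
    (hX2 : |I (X0 * C.Γ u (C.lap u))| ≤ a * ℓ * L ^ 2 * I w)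
    (hu' : u' ∈ C.A) (he : e ∈ C.A) (hL : C.Γ b u - u = u' + e) (k : ℝ) :
    |C.NN K u u X0 - I (P0 * C.Γ u u')|
      ≤ a * L * r * (Real.sqrt (H363.QQ C K n u u w) * Real.sqrt (H363.QQ C K n b b w))
        + a * L ^ 2 * ((B + 2 * ℓ + 1) * I (w * |μ|) * (1 + n⁻¹)
          + (B + ℓ + 1) / r ^ 2 * I (w * |q|) + (3 * ℓ + |K| * (B + 1) * r ^ 2) * I w)
        + a * (ℓ + B) * L / r * I (w * |e - k • 1|) := by
  have hB := hC.bei hn hBE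
  have uA := hC.test_A hu.1
  have r0 := hW.r0
  have a0 := hW.a0
  have L0 := hU.L0
  have l0 := hU.l0
  have h1 := H363.est_c hC hn hBE hb hP hu hw hμ hq hW hU
  have h2 := H363.est_M hC hb.1 hP hu.1 he hW hU k
  have e0 := H363.rad_E6 hC hB hb.1 hP.mem0 hX hXΓ hu.1
  have t2 : |I (X0 * C.Γ u u)| ≤ a * L ^ 2 * r ^ 2 * I w := by
    refine H363.I_dom1 hW.w1 ?_
    filter_upwards [mul_ae X0 (C.Γ u u), hXw, hX1, hW.w0, hC.toIsDir.Γ_nonneg_ae uA.1]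
      with x g1 g2 g3 g4 g5
    rw [g1, abs_mul, abs_of_nonneg g5]
    by_cases hx : X0 x = 0
    · rw [hx, abs_zero, zero_mul]; positivity
    · calc |X0 x| * C.Γ u u x ≤ (a * r ^ 2 * w x) * (L ^ 2) :=
            mul_le_mul g2 (g3 hx) g5 (by positivity)
        _ = a * L ^ 2 * r ^ 2 * w x := by ring
  have e1 : I (P0 * C.Γ u (C.Γ b u - u)) = I (P0 * C.Γ u u') + I (P0 * C.Γ u e) := by
    rw [hL, hC.Γ_add_right uA.1 hu'.1 he.1, mul_add,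
      I_add (mem_mul_top hP.mem0.2 (hC.Γ_mem1 uA.1 hu'.1))
        (mem_mul_top hP.mem0.2 (hC.Γ_mem1 uA.1 he.1))]
  set Y := I (P0 * C.Γ u u') with hY
  set Z := I (P0 * C.Γ u e) with hZ
  set A1 := I (P0 * C.Γ u u) - I (P0 * C.hess b u u) with hA1
  set A2 := I (X0 * C.Γ u (C.lap u)) with hA2
  set A3 := I (X0 * C.Γ u u) with hA3
  have e2 : C.NN K u u X0 - Y = A1 - A2 - K * A3 + Z := by
    rw [e0, e1]; ring
  rw [e2]
  have s0 := abs_add_le (A1 - A2 - K * A3) Z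
  have s1 := abs_sub (A1 - A2) (K * A3)
  have s2 := abs_sub A1 A2
  rw [abs_mul] at s1
  have s3 : |K| * |A3| ≤ |K| * (a * L ^ 2 * r ^ 2 * I w) :=
    mul_le_mul_of_nonneg_left t2 (abs_nonneg _)
  have e3 : a * L ^ 2 * ((B + 2 * ℓ + 1) * I (w * |μ|) * (1 + n⁻¹)
          + (B + ℓ + 1) / r ^ 2 * I (w * |q|) + (3 * ℓ + |K| * (B + 1) * r ^ 2) * I w)
      = a * L ^ 2 * ((B + 2 * ℓ + 1) * I (w * |μ|) * (1 + n⁻¹)
          + (B + ℓ + 1) / r ^ 2 * I (w * |q|) + (2 * ℓ + |K| * B * r ^ 2) * I w)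
        + a * ℓ * L ^ 2 * I w + |K| * (a * L ^ 2 * r ^ 2 * I w) := by ring
  rw [e3]
  linarith

end e6

/-! real inequalities with the constants -/

theorem fin_anti {B L₁ cb x y e₁ e₂ : ℝ} (hB : 1 ≤ B) (hL : 1 ≤ L₁) (hcb : 0 ≤ cb) (x0 : 0 ≤ x)
    (y0 : 0 ≤ y) :
    B * (8 * B ^ 3 * L₁ ^ 2 * cb * x + 2 * B ^ 3 * L₁ * (1 + cb) * x
        + 2 * B ^ 3 * L₁ * (1 + cb) * y + B * e₁ + B * e₂)
      ≤ B ^ 5 * L₁ ^ 2 * (60 * cb + 100) * (x + y) + B ^ 2 * (e₁ + e₂) := by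
  have hBpos : 0 < B := by linarith
  have hLpos : 0 < L₁ := by linarith
  have hB45 : B ^ 4 ≤ B ^ 5 := pow_le_pow_right₀ hB (by norm_num)
  have hL12 : L₁ ≤ L₁ ^ 2 := by nlinarith
  have q3 : B ^ 4 * (8 * L₁ ^ 2 * cb + 2 * L₁ * (1 + cb)) ≤
      B ^ 5 * L₁ ^ 2 * (60 * cb + 100) := by
    have h1 := mul_le_mul_of_nonneg_right hL12 (by positivity : 0 ≤ 2 * (1 + cb))
    have h2 : 8 * L₁ ^ 2 * cb + 2 * L₁ * (1 + cb) ≤ L₁ ^ 2 * (60 * cb + 100) := by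
      have h3 : 0 ≤ L₁ ^ 2 * cb := by positivity
      have h4 : 0 ≤ L₁ ^ 2 := by positivity
      nlinarith only [h1, h3, h4]
    calc B ^ 4 * (8 * L₁ ^ 2 * cb + 2 * L₁ * (1 + cb)) ≤ B ^ 5 * (L₁ ^ 2 * (60 * cb + 100)) :=
          mul_le_mul hB45 h2 (by positivity) (by positivity)
      _ = _ := by ring
  have q4 : B ^ 4 * (2 * L₁ * (1 + cb)) ≤ B ^ 5 * L₁ ^ 2 * (60 * cb + 100) := by
    refine le_trans ?_ q3
    apply mul_le_mul_of_nonneg_left _ (by positivity)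
    have : 0 ≤ 8 * L₁ ^ 2 * cb := by positivity
    linarith
  have q5 := mul_le_mul_of_nonneg_right q3 x0
  have q6 := mul_le_mul_of_nonneg_right q4 y0
  calc B * (8 * B ^ 3 * L₁ ^ 2 * cb * x + 2 * B ^ 3 * L₁ * (1 + cb) * x
        + 2 * B ^ 3 * L₁ * (1 + cb) * y + B * e₁ + B * e₂)
      = B ^ 4 * (8 * L₁ ^ 2 * cb + 2 * L₁ * (1 + cb)) * x + B ^ 4 * (2 * L₁ * (1 + cb)) * y
        + B ^ 2 * (e₁ + e₂) := by ring
    _ ≤ B ^ 5 * L₁ ^ 2 * (60 * cb + 100) * x + B ^ 5 * L₁ ^ 2 * (60 * cb + 100) * y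
        + B ^ 2 * (e₁ + e₂) := by linarith
    _ = _ := by ring

theorem fin_M {B L₁ cb x e : ℝ} (hB : 1 ≤ B) (hL : 1 ≤ L₁) (hcb : 0 ≤ cb) (x0 : 0 ≤ x)
    (e0 : 0 ≤ e) :
    2 * B ^ 3 * L₁ * x + 4 * (B ^ 4 * L₁ ^ 2) * (4 * cb + 12) * x
        + 2 * B ^ 3 * L₁ * (1 + cb) * x + B * e
      ≤ B ^ 5 * L₁ ^ 2 * (60 * cb + 100) * (x + e) := by
  have hBpos : 0 < B := by linarith
  have hLpos : 0 < L₁ := by linarith
  have hL12 : L₁ ≤ L₁ ^ 2 := by nlinarith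
  have hB35 : B ^ 3 ≤ B ^ 5 := pow_le_pow_right₀ hB (by norm_num)
  have hB45 : B ^ 4 ≤ B ^ 5 := pow_le_pow_right₀ hB (by norm_num)
  have hB15 : B ≤ B ^ 5 := by
    calc B = B ^ 1 := (pow_one B).symm
      _ ≤ _ := pow_le_pow_right₀ hB (by norm_num)
  have h0 : (0 : ℝ) ≤ B ^ 5 * L₁ ^ 2 := by positivity
  have h3 := mul_nonneg h0 hcb
  have q3 : 2 * B ^ 3 * L₁ + 4 * (B ^ 4 * L₁ ^ 2) * (4 * cb + 12) + 2 * B ^ 3 * L₁ * (1 + cb)
      ≤ B ^ 5 * L₁ ^ 2 * (60 * cb + 100) := by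
    have h5 : B ^ 3 * L₁ ≤ B ^ 5 * L₁ ^ 2 := mul_le_mul hB35 hL12 (by positivity) (by positivity)
    have h6 : B ^ 4 * L₁ ^ 2 ≤ B ^ 5 * L₁ ^ 2 := mul_le_mul_of_nonneg_right hB45 (by positivity)
    have h1 := mul_le_mul_of_nonneg_right h6 (by positivity : 0 ≤ 4 * (4 * cb + 12))
    have h2 := mul_le_mul_of_nonneg_right h5 (by positivity : 0 ≤ 2 * (1 + cb))
    nlinarith only [h0, h1, h2, h3, h5]
  have q4 : B ≤ B ^ 5 * L₁ ^ 2 * (60 * cb + 100) := by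
    have h4 : B ^ 5 * 1 ≤ B ^ 5 * L₁ ^ 2 :=
      mul_le_mul_of_nonneg_left (one_le_pow₀ hL) (by positivity)
    linarith only [h0, h3, h4, hB15]
  have q5 := mul_le_mul_of_nonneg_right q3 x0
  have q6 := mul_le_mul_of_nonneg_right q4 e0
  calc 2 * B ^ 3 * L₁ * x + 4 * (B ^ 4 * L₁ ^ 2) * (4 * cb + 12) * x
        + 2 * B ^ 3 * L₁ * (1 + cb) * x + B * e
      = (2 * B ^ 3 * L₁ + 4 * (B ^ 4 * L₁ ^ 2) * (4 * cb + 12) + 2 * B ^ 3 * L₁ * (1 + cb)) * x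
        + B * e := by ring
    _ ≤ B ^ 5 * L₁ ^ 2 * (60 * cb + 100) * x + B ^ 5 * L₁ ^ 2 * (60 * cb + 100) * e := by
        linarith
    _ = _ := by ring

section vertex

variable {M : Type u} [MetricSpace M] [CompleteSpace M] [SecondCountableTopology M]
  [MeasurableSpace M] [BorelSpace M] {m : Measure M} {n : ℕ} {K A : ℝ} {o : M} {p : ℝ → M → M → ℝ}
  {R Q η ρ A₀ B L₁ ε t : ℝ} {u : Fin n → M →ₘ[m] ℝ} {uu : M → E n} {y : M}
  {P0 P1 P2 X0 : M →ₘ[m] ℝ} {𝒜 : E n →ₗ[ℝ] E n} {cc : E n → ℝ}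

/-- inputs of GL1-d at the vertex `y` and the time `t` -/
structure GIn (m : Measure M) {n : ℕ} (K : ℝ) (o : M) (p : ℝ → M → M → ℝ)
    (u : Fin n → M →ₘ[m] ℝ) (uu : M → E n) (R Q A₀ η ρ B L₁ ε t : ℝ) (y : M)
    (P0 P1 P2 X0 : M →ₘ[m] ℝ) (𝒜 : E n →ₗ[ℝ] E n) (cc : E n → ℝ) : Prop where
  t0 : 0 < t
  tρ : t ≤ ρ ^ 2
  t1 : t ≤ 1
  Q1 : 1 ≤ Q
  B1 : 1 ≤ B
  L1 : 1 ≤ L₁
  η0 : 0 ≤ η
  A0 : 0 < A₀
  ηA : n * η ≤ A₀
  w : WAt m n p B L₁ t y P0 P1 P2 X0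
  glb : ∀ c c' : E n, |I (P0 * (sob m).Γ (uc u c) (uc u c')) - I P0 * Gm m p u t y c c'|
    ≤ B * (√t ^ n * (√(Nt m K p u Q A₀ ρ (3 / 8) t y c c) *
      √(Nt m K p u Q A₀ ρ (3 / 8) t y c' c')))
  e1 : E1At m n K p Q A₀ ρ B t y
  err : ∀ v, PP m p t y |eE m p u t y v (𝒜 v) (cc v)| ≤ B * √t * xE m K p u Q A₀ ρ t y v
  lip : ∀ (v : E n) z z', dist y z < L₁ * √t → dist y z' < L₁ * √t →
    |⟪v, uu z⟫_ℝ - ⟪v, uu z'⟫_ℝ| ≤ 2 * (B * nG m p u t y v) * dist z z'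
  inb : ∀ z, dist y z < L₁ * √t → z ∈ ball o (R * ρ)
  gmN : ∀ v, t * gm m K p u t y v v ≤ B * Nt m K p u Q A₀ ρ (3 / 8) t y v v
  nε : ∀ v, Nt m K p u Q A₀ ρ (3 / 8) t y v v ≤ ε * Gm m p u t y v v
  low : ∀ v : E n, (t / ρ ^ 2) ^ (1 / 8 : ℝ) * ‖v‖ ^ 2 ≤ 2 * Gm m p u t y v v
  D0 : A₀ * (t / ρ ^ 2) ^ (1 / 8 : ℝ) ≤ Dt m n K p Q A₀ ρ t y
  D1 : Dt m n K p Q A₀ ρ t y ≤ 1
  G0 : ∀ v, 0 ≤ Gm m p u t y v v
  N0 : ∀ v, 0 ≤ Nt m K p u Q A₀ ρ (3 / 8) t y v v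
  g0 : ∀ v, 0 ≤ gm m K p u t y v v
  ε0 : 0 ≤ ε

namespace GIn

variable (g : GIn m K o p u uu R Q A₀ η ρ B L₁ ε t y P0 P1 P2 X0 𝒜 cc)
include g

theorem Dnn : 0 ≤ Dt m n K p Q A₀ ρ t y :=
  (mul_nonneg g.A0.le (Real.rpow_nonneg (div_nonneg g.t0.le (sq_nonneg _)) _)).trans g.D0

/-- `√D |v| ≤ 𝔫'(v)` -/
theorem DG (v : E n) : √(Dt m n K p Q A₀ ρ t y) * nG m p u t y v ≤ nE m K p u Q A₀ ρ t y v := by
  unfold nG nE
  rw [← Real.sqrt_mul g.Dnn]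
  exact Real.sqrt_le_sqrt (by linarith [g.N0 v])

theorem NE (v : E n) : √(Nt m K p u Q A₀ ρ (3 / 8) t y v v) ≤ nE m K p u Q A₀ ρ t y v := by
  unfold nE
  exact Real.sqrt_le_sqrt (by linarith [mul_nonneg g.Dnn (g.G0 v)])

theorem NG (v : E n) : √(Nt m K p u Q A₀ ρ (3 / 8) t y v v) ≤ √ε * nG m p u t y v := by
  unfold nG
  rw [← Real.sqrt_mul g.ε0]
  exact Real.sqrt_le_sqrt (g.nε v)

/-- `D |v| |w| ≤ √D 𝔫'(v) |w|` -/
theorem DGG (v w : E n) : Dt m n K p Q A₀ ρ t y * (nG m p u t y v * nG m p u t y w)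
    ≤ √(Dt m n K p Q A₀ ρ t y) * (nE m K p u Q A₀ ρ t y v * nG m p u t y w) := by
  have h1 := g.DG v
  have h2 : 0 ≤ nG m p u t y w := Real.sqrt_nonneg _
  have h3 : 0 ≤ √(Dt m n K p Q A₀ ρ t y) := Real.sqrt_nonneg _
  have h4 := Real.mul_self_sqrt g.Dnn
  calc Dt m n K p Q A₀ ρ t y * (nG m p u t y v * nG m p u t y w)
      = √(Dt m n K p Q A₀ ρ t y) * ((√(Dt m n K p Q A₀ ρ t y) * nG m p u t y v)
          * nG m p u t y w) := by rw [← mul_assoc, ← mul_assoc, ← mul_assoc, h4, mul_assoc]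
    _ ≤ _ := mul_le_mul_of_nonneg_left (mul_le_mul_of_nonneg_right h1 h2) h3

/-- `t/ρ² ≤ (t/ρ²)^{1/8}` type bound: `√n |v| η √t/ρ ≤ 2 D |v|_t` -/
theorem ellaux (hρ : 0 < ρ) (v : E n) :
    √n * ‖v‖ * η * √(t / ρ ^ 2) ≤ 2 * (Dt m n K p Q A₀ ρ t y * nG m p u t y v) := by
  set s := t / ρ ^ 2 with hs
  have hs0 : 0 < s := div_pos g.t0 (by positivity)
  have hs1 : s ≤ 1 := (div_le_one (by positivity)).2 g.tρ
  have h1 : √(s ^ (1 / 8 : ℝ)) * ‖v‖ ≤ √2 * nG m p u t y v := by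
    have h2 := Real.sqrt_le_sqrt (g.low v)
    rw [Real.sqrt_mul (by positivity), Real.sqrt_sq (norm_nonneg v),
      Real.sqrt_mul (by norm_num)] at h2
    exact h2
  have h3 : √(s ^ (1 / 8 : ℝ)) = s ^ (1 / 16 : ℝ) := by
    rw [Real.sqrt_eq_rpow, ← Real.rpow_mul hs0.le]; norm_num
  have h4 : √s = s ^ (1 / 2 : ℝ) := Real.sqrt_eq_rpow s
  have h5 : s ^ (1 / 2 : ℝ) ≤ s ^ (1 / 8 : ℝ) * s ^ (1 / 16 : ℝ) := by
    rw [← Real.rpow_add hs0]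
    exact Real.rpow_le_rpow_of_exponent_ge hs0 hs1 (by norm_num)
  have hn : √n * η ≤ A₀ := by
    rcases Nat.eq_zero_or_pos n with h0 | h0
    · rw [h0]; simp; exact g.A0.le
    · have : √(n : ℝ) ≤ n := by
        rw [Real.sqrt_le_left (by positivity)]
        have : (1 : ℝ) ≤ n := by exact_mod_cast h0
        nlinarith
      exact (mul_le_mul_of_nonneg_right this g.η0).trans g.ηA
  have hG : 0 ≤ nG m p u t y v := Real.sqrt_nonneg _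
  have h2' : √2 ≤ 2 := by
    rw [Real.sqrt_le_left (by norm_num)]; norm_num
  rw [h3] at h1
  rw [h4]
  have hsn : 0 ≤ √(n : ℝ) := Real.sqrt_nonneg _
  calc √n * ‖v‖ * η * s ^ (1 / 2 : ℝ) = (√n * η) * (‖v‖ * s ^ (1 / 2 : ℝ)) := by ring
    _ ≤ A₀ * (‖v‖ * (s ^ (1 / 8 : ℝ) * s ^ (1 / 16 : ℝ))) := by
        have := g.A0
        have := g.η0
        gcongr
    _ = (A₀ * s ^ (1 / 8 : ℝ)) * (s ^ (1 / 16 : ℝ) * ‖v‖) := by ring
    _ ≤ Dt m n K p Q A₀ ρ t y * (√2 * nG m p u t y v) :=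
        mul_le_mul g.D0 h1 (by positivity) g.Dnn
    _ ≤ Dt m n K p Q A₀ ρ t y * (2 * nG m p u t y v) := by
        have := g.Dnn
        gcongr
    _ = _ := by ring

theorem Kt (hu : Cfg m n K o p R Q η ρ u uu) (hn : 1 ≤ n) :
    |K| * t ≤ Dt m n K p Q A₀ ρ t y := by
  have hρ := hu.ρ_pos
  set s := t / ρ ^ 2 with hs
  have hs0 : 0 < s := div_pos g.t0 (by positivity)
  have hs1 : s ≤ 1 := (div_le_one (by positivity)).2 g.tρ
  have h1 : |K| * t = (|K| * ρ ^ 2) * s := by rw [hs]; field_simp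
  have h2 : s ≤ s ^ (1 / 8 : ℝ) := by
    conv_lhs => rw [← Real.rpow_one s]
    exact Real.rpow_le_rpow_of_exponent_ge hs0 hs1 (by norm_num)
  have h3 : η ≤ A₀ := by
    have h4 : (1 : ℝ) ≤ n := by exact_mod_cast hn
    nlinarith [g.ηA, g.η0]
  rw [h1]
  calc |K| * ρ ^ 2 * s ≤ η * s ^ (1 / 8 : ℝ) :=
        mul_le_mul hu.Kρ h2 hs0.le g.η0
    _ ≤ A₀ * s ^ (1 / 8 : ℝ) := mul_le_mul_of_nonneg_right h3 (by positivity)
    _ ≤ _ := g.D0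

/-- the bounds of `u_v` on the support of the weights, `ℓ = D` -/
theorem ub (h : Env m n K o A p) (hu : Cfg m n K o p R Q η ρ u uu) (v : E n) :
    H363.UB (sob m) (bb m y t) (uc u v) P0 P1 P2 (√t) (2 * L₁ * (B * nG m p u t y v)) (cB n K L₁)
      (Dt m n K p Q A₀ ρ t y) ⟪v, uu y⟫_ℝ := by
  have hρ := hu.ρ_pos
  have hst : 0 < √t := Real.sqrt_pos.2 g.t0
  refine ub_of h hu g.η0 (by linarith [g.Q1]) g.t0 g.t1 g.L1 (mul_nonneg (by linarith [g.B1]) (Real.sqrt_nonneg _)) g.Dnn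
    (g.lip v) g.inb ?_ ?_
  · rw [le_div_iff₀ hst]
    have h1 := g.ellaux hρ v
    have h2 : √(t / ρ ^ 2) = √t / ρ := by
      rw [Real.sqrt_div g.t0.le, Real.sqrt_sq hρ.le]
    rw [h2] at h1
    have hG : 0 ≤ nG m p u t y v := Real.sqrt_nonneg _
    have h4 : 1 ≤ L₁ * B := one_le_mul_of_one_le_of_one_le g.L1 g.B1
    have h3 : Dt m n K p Q A₀ ρ t y * nG m p u t y v ≤
        (L₁ * B) * (Dt m n K p Q A₀ ρ t y * nG m p u t y v) :=
      le_mul_of_one_le_left (mul_nonneg g.Dnn hG) h4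
    calc √n * ‖v‖ * (η / ρ) * √t = √n * ‖v‖ * η * (√t / ρ) := by ring
      _ ≤ 2 * (Dt m n K p Q A₀ ρ t y * nG m p u t y v) := h1
      _ ≤ Dt m n K p Q A₀ ρ t y * (2 * L₁ * (B * nG m p u t y v)) := by linarith
  · filter_upwards [g.w.supp] with x hx hx'
    refine hx ?_
    rcases hx' with h1 | h1 | h1
    · exact Or.inl h1
    · exact Or.inr (Or.inl h1)
    · exact Or.inr (Or.inr (Or.inl h1))

theorem stn : 0 < √t ^ n := pow_pos (Real.sqrt_pos.2 g.t0) _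

omit g in
theorem I_w (c : ℝ) (F : M →ₘ[m] ℝ) : I ((c • ph m p t y) * F) = c * PP m p t y F := by
  unfold PP
  rw [smul_mul_assoc, I_smul]

theorem Iw (h : Env m n K o A p) : I (√t ^ n • ph m p t y) = √t ^ n := by
  obtain ⟨_, hC, hBE, hsf, hn⟩ := H924.facts h.hyp
  rw [I_smul, (H924.cen hC h y).mass t g.t0, mul_one]

omit g in
theorem bT (h : Env m n K o A p) (ht : 0 < t) (y : M) : bb m y t ∈ (sob m).TestI := by
  obtain ⟨_, hC, hBE, hsf, hn⟩ := H924.facts h.hyp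
  have hV := H254.vx_of h.hyp y
  exact H715.P_testI_pos hC hn hBE ht (hC.memLp _ hV.mem) hV.memA.2

/-- the error term -/
theorem IwE (h : Env m n K o A p) (v : E n) :
    I ((√t ^ n • ph m p t y) * |((sob m).Γ (bb m y t) (uc u v) - uc u v - uc u (𝒜 v))
      - cc v • (1 : M →ₘ[m] ℝ)|)
      ≤ √t ^ n * (B * √t * (√(Dt m n K p Q A₀ ρ t y) * nE m K p u Q A₀ ρ t y v)) := by
  rw [I_w]
  exact mul_le_mul_of_nonneg_left (g.err v) g.stn.le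

/-- GL1-b with `𝔫'` and `√ε |·|` -/
theorem glb' (v w : E n) :
    |I (P0 * (sob m).Γ (uc u v) (uc u w)) - I P0 * Gm m p u t y v w|
      ≤ √t ^ n * (B * (√ε * (nG m p u t y w * nE m K p u Q A₀ ρ t y v))) := by
  refine (g.glb v w).trans ?_
  have h1 := g.NE v
  have h2 := g.NG w
  have hB : 0 ≤ B := by linarith [g.B1]
  have h3 : √(Nt m K p u Q A₀ ρ (3 / 8) t y v v) * √(Nt m K p u Q A₀ ρ (3 / 8) t y w w)
      ≤ nE m K p u Q A₀ ρ t y v * (√ε * nG m p u t y w) :=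
    mul_le_mul h1 h2 (Real.sqrt_nonneg _) (Real.sqrt_nonneg _)
  have h4 := g.stn
  calc B * (√t ^ n * (√(Nt m K p u Q A₀ ρ (3 / 8) t y v v) *
        √(Nt m K p u Q A₀ ρ (3 / 8) t y w w)))
      ≤ B * (√t ^ n * (nE m K p u Q A₀ ρ t y v * (√ε * nG m p u t y w))) := by gcongr
    _ = _ := by ring

end GIn

/-- the constant of GL1-d -/
noncomputable def cG (n : ℕ) (K B L₁ : ℝ) : ℝ := B ^ 5 * L₁ ^ 2 * (60 * cB n K L₁ + 100)

theorem cG_ge (hB : 1 ≤ B) (hL : 1 ≤ L₁) : 1 ≤ cG n K B L₁ := by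
  unfold cG
  have h1 : (1 : ℝ) ≤ B ^ 5 := one_le_pow₀ hB
  have h3 : (1 : ℝ) ≤ L₁ ^ 2 := one_le_pow₀ hL
  have h2 : 0 ≤ cB n K L₁ := Real.sqrt_nonneg _
  have h4 : 1 ≤ B ^ 5 * L₁ ^ 2 := one_le_mul_of_one_le_of_one_le h1 h3
  nlinarith

namespace GIn

variable (g : GIn m K o p u uu R Q A₀ η ρ B L₁ ε t y P0 P1 P2 X0 𝒜 cc)
include g

/-- **almost antisymmetry of `𝒜`** -/
theorem anti (h : Env m n K o A p) (hu : Cfg m n K o p R Q η ρ u uu) (v w : E n) :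
    |Gm m p u t y (𝒜 v) w - Gm m p u t y v (𝒜 w)|
      ≤ cG n K B L₁ * (√(Dt m n K p Q A₀ ρ t y) * (nE m K p u Q A₀ ρ t y v * nG m p u t y w
          + nE m K p u Q A₀ ρ t y w * nG m p u t y v))
        + B ^ 2 * (√ε * (nG m p u t y (𝒜 v) * nE m K p u Q A₀ ρ t y w
          + nG m p u t y (𝒜 w) * nE m K p u Q A₀ ρ t y v)) := by
  obtain ⟨_, hC, hBE, hsf, hn⟩ := H924.facts h.hyp
  have hB : (sob m).BEi K := hC.bei hn hBE
  have hb := bT h g.t0 y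
  have hT := fun c => H924.uc_testI h hu c
  have hA : ∀ c, uc u c ∈ (sob m).A := fun c => hC.test_A (hT c).1
  have hst : 0 < √t := Real.sqrt_pos.2 g.t0
  have hstn := g.stn
  have hBpos : 0 < B := by linarith [g.B1]
  have hL1 := g.L1
  have hLpos : 0 < L₁ := by linarith
  set D := Dt m n K p Q A₀ ρ t y with hD
  have hD0 : 0 ≤ D := g.Dnn
  have hD1 : D ≤ 1 := g.D1
  set cb := cB n K L₁ with hcb
  have hcb0 : 0 ≤ cb := Real.sqrt_nonneg _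
  have heA : ∀ c, (sob m).Γ (bb m y t) (uc u c) - uc u c - uc u (𝒜 c) ∈ (sob m).A := fun c =>
    hC.toIsDir.A_sub (hC.toIsDir.A_sub (hC.Γ_mem hB hb.1 (hT c).1) (hA c)) (hA _)
  have key := H363.est_b hC hB hb g.w.rp (hT v).1 (hT w).1 g.w.wb (g.ub h hu v) (g.ub h hu w)
    (hA (𝒜 v)) (heA v) (by abel) (hA (𝒜 w)) (heA w) (by abel) (cc v) (cc w)
  have i1 := g.IwE h v
  have i2 := g.IwE h w
  have l1 := g.glb' w (𝒜 v)
  have l2 := g.glb' v (𝒜 w)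
  rw [g.Iw h] at key
  set Gv := nG m p u t y v with hGv
  set Gw := nG m p u t y w with hGw
  set Ev := nE m K p u Q A₀ ρ t y v with hEv
  set Ew := nE m K p u Q A₀ ρ t y w with hEw
  have hGv0 : 0 ≤ Gv := Real.sqrt_nonneg _
  have hGw0 : 0 ≤ Gw := Real.sqrt_nonneg _
  have hEv0 : 0 ≤ Ev := Real.sqrt_nonneg _
  have hEw0 : 0 ≤ Ew := Real.sqrt_nonneg _
  have hsD : 0 ≤ √D := Real.sqrt_nonneg _
  have d1 : D * (Gv * Gw) ≤ √D * (Ev * Gw) := g.DGG v w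
  -- the three terms of `key`
  have k1 : B * (D + D) * cb * (2 * L₁ * (B * Gv)) * (2 * L₁ * (B * Gw)) * √t ^ n
      ≤ √t ^ n * (8 * B ^ 3 * L₁ ^ 2 * cb * (√D * (Ev * Gw))) := by
    calc B * (D + D) * cb * (2 * L₁ * (B * Gv)) * (2 * L₁ * (B * Gw)) * √t ^ n
        = √t ^ n * (8 * B ^ 3 * L₁ ^ 2 * cb * (D * (Gv * Gw))) := by ring
      _ ≤ _ := by gcongr
  have k2 : ∀ G e : ℝ, 0 ≤ G → 0 ≤ e → ∀ J, J ≤ √t ^ n * (B * √t * (√D * e)) →
      B * (D + cb) * (2 * L₁ * (B * G)) / √t * J ≤ √t ^ n * (2 * B ^ 3 * L₁ * (1 + cb) * (√D * (e * G))) := by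
    intro G e hG he J hJ
    calc B * (D + cb) * (2 * L₁ * (B * G)) / √t * J
        ≤ B * (D + cb) * (2 * L₁ * (B * G)) / √t * (√t ^ n * (B * √t * (√D * e))) :=
          mul_le_mul_of_nonneg_left hJ (by positivity)
      _ = √t ^ n * (2 * B ^ 3 * L₁ * (D + cb) * (√D * (e * G))) := by field_simp
      _ ≤ _ := by gcongr
  have k3 := k2 Gw Ev hGw0 hEv0 _ i1
  have k4 := k2 Gv Ew hGv0 hEw0 _ i2
  have k5 : |I (P0 * (sob m).Γ (uc u w) (uc u (𝒜 v))) - I (P0 * (sob m).Γ (uc u v) (uc u (𝒜 w)))|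
      ≤ √t ^ n * (8 * B ^ 3 * L₁ ^ 2 * cb * (√D * (Ev * Gw)))
        + √t ^ n * (2 * B ^ 3 * L₁ * (1 + cb) * (√D * (Ev * Gw)))
        + √t ^ n * (2 * B ^ 3 * L₁ * (1 + cb) * (√D * (Ew * Gv))) := by
    linarith
  set Gav := nG m p u t y (𝒜 v) with hGav
  set Gaw := nG m p u t y (𝒜 w) with hGaw
  have esym : Gm m p u t y (𝒜 v) w = Gm m p u t y w (𝒜 v) := by
    unfold Gm
    rw [hC.symm _ (hA (𝒜 v)).1 _ (hA w).1]
  have l3 : |I P0 * (Gm m p u t y (𝒜 v) w - Gm m p u t y v (𝒜 w))|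
      ≤ √t ^ n * (8 * B ^ 3 * L₁ ^ 2 * cb * (√D * (Ev * Gw))
        + 2 * B ^ 3 * L₁ * (1 + cb) * (√D * (Ev * Gw)) + 2 * B ^ 3 * L₁ * (1 + cb) * (√D * (Ew * Gv))
        + B * (√ε * (Gav * Ew)) + B * (√ε * (Gaw * Ev))) := by
    rw [esym]
    have e1 : I P0 * (Gm m p u t y w (𝒜 v) - Gm m p u t y v (𝒜 w))
        = (I (P0 * (sob m).Γ (uc u w) (uc u (𝒜 v))) - I (P0 * (sob m).Γ (uc u v) (uc u (𝒜 w))))
          - (I (P0 * (sob m).Γ (uc u w) (uc u (𝒜 v))) - I P0 * Gm m p u t y w (𝒜 v))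
          + (I (P0 * (sob m).Γ (uc u v) (uc u (𝒜 w))) - I P0 * Gm m p u t y v (𝒜 w)) := by ring
    rw [e1]
    refine (abs_add_le _ _).trans ?_
    refine (add_le_add_left (abs_sub _ _) _).trans ?_
    linarith
  have hP : √t ^ n ≤ B * I P0 := g.w.v_ge
  have hP0 : 0 < I P0 := by
    by_contra hc
    push Not at hc
    nlinarith
  rw [abs_mul, abs_of_pos hP0] at l3
  set X := |Gm m p u t y (𝒜 v) w - Gm m p u t y v (𝒜 w)| with hX
  have hX0 : 0 ≤ X := abs_nonneg _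
  have l4 : √t ^ n * X ≤ √t ^ n * (B * (8 * B ^ 3 * L₁ ^ 2 * cb * (√D * (Ev * Gw))
        + 2 * B ^ 3 * L₁ * (1 + cb) * (√D * (Ev * Gw)) + 2 * B ^ 3 * L₁ * (1 + cb) * (√D * (Ew * Gv))
        + B * (√ε * (Gav * Ew)) + B * (√ε * (Gaw * Ev)))) := by
    calc √t ^ n * X ≤ B * I P0 * X := mul_le_mul_of_nonneg_right hP hX0
      _ = B * (I P0 * X) := by ring
      _ ≤ B * _ := mul_le_mul_of_nonneg_left l3 hBpos.le
      _ = _ := by ring
  have l5 := le_of_mul_le_mul_left l4 hstn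
  have q1 : 0 ≤ √D * (Ev * Gw) := by positivity
  have q2 : 0 ≤ √D * (Ew * Gv) := by positivity
  refine l5.trans ((fin_anti g.B1 g.L1 hcb0 q1 q2).trans (le_of_eq ?_))
  unfold cG
  rw [← hcb, mul_add (√D), mul_add (√ε)]

/-- the term `∫ Ξ ⟨∇u_v, ∇Δu_v⟩` -/
theorem X0Γ (h : Env m n K o A p) (hu : Cfg m n K o p R Q η ρ u uu) (hy : y ∈ ball o (R * ρ))
    (v : E n) :
    |I (X0 * (sob m).Γ (uc u v) ((sob m).lap (uc u v)))|
      ≤ B * Dt m n K p Q A₀ ρ t y * (2 * L₁ * (B * nG m p u t y v)) ^ 2 * I (√t ^ n • ph m p t y) := by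
  obtain ⟨_, hC, hBE, hsf, hn⟩ := H924.facts h.hyp
  have hT := H924.uc_testI h hu v
  have hW : uc u v ∈ (sob m).W := (hC.test_A hT.1).1
  have hLW : (sob m).lap (uc u v) ∈ (sob m).W := (hC.testI_lap_A' hT).1
  have hρ := hu.ρ_pos
  have hφ := H924.cen hC h y
  have hst : 0 < √t := Real.sqrt_pos.2 g.t0
  have hstn := g.stn
  have hBpos : 0 < B := by linarith [g.B1]
  have hL1 := g.L1
  have hLpos : 0 < L₁ := by linarith
  have htQ : t ≤ Q * ρ ^ 2 := by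
    have := g.Q1
    have := g.tρ
    nlinarith [sq_nonneg ρ]
  have h1 := H597.I_abs_Γ_le hC (hφ.top t g.t0) (hφ.nonneg t g.t0) hW hLW
  have h2 := H924.uc_lap2 h hu v hy g.t0 htQ
  have h3 : √(I (ph m p t y * (sob m).Γ ((sob m).lap (uc u v)) ((sob m).lap (uc u v))))
      ≤ √n * ‖v‖ * (η / ρ ^ 2) := by
    rw [← Real.sqrt_sq (show 0 ≤ √n * ‖v‖ * (η / ρ ^ 2) by
      have := g.η0
      positivity)]
    exact Real.sqrt_le_sqrt h2
  have h4 : I (ph m p t y * |(sob m).Γ (uc u v) ((sob m).lap (uc u v))|)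
      ≤ nG m p u t y v * (√n * ‖v‖ * (η / ρ ^ 2)) :=
    h1.trans (mul_le_mul_of_nonneg_left h3 (Real.sqrt_nonneg _))
  have hF1 : MemLp ((sob m).Γ (uc u v) ((sob m).lap (uc u v))) 1 m := hC.toIsDir.Γ_mem1 hW hLW
  have h5 : |I (X0 * (sob m).Γ (uc u v) ((sob m).lap (uc u v)))|
      ≤ (B * t) * I ((√t ^ n • ph m p t y) * |(sob m).Γ (uc u v) ((sob m).lap (uc u v))|) := by
    refine H363.I_dom ?_ ?_
    · refine mem_mul_top (mem_smul _ (hφ.top t g.t0)) ?_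
      refine mem_of_le hF1 ?_
      filter_upwards [H363.abs_ae' ((sob m).Γ (uc u v) ((sob m).lap (uc u v)))] with x hx
      rw [hx, abs_abs]
    · filter_upwards [g.w.xw, mul_ae X0 ((sob m).Γ (uc u v) ((sob m).lap (uc u v)))] with x a1 a2
      rw [a2, abs_mul]
      rw [Real.sq_sqrt g.t0.le] at a1
      calc |X0 x| * |(sob m).Γ (uc u v) ((sob m).lap (uc u v)) x|
          ≤ (B * t * (√t ^ n • ph m p t y : M →ₘ[m] ℝ) x)
              * |(sob m).Γ (uc u v) ((sob m).lap (uc u v)) x| :=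
            mul_le_mul_of_nonneg_right a1 (abs_nonneg _)
        _ = _ := by ring
  rw [I_w] at h5
  rw [g.Iw h]
  have h6 := g.ellaux hρ v
  have hG : 0 ≤ nG m p u t y v := Real.sqrt_nonneg _
  have h7 : t / ρ ^ 2 ≤ √(t / ρ ^ 2) := by
    have hs0 : 0 ≤ t / ρ ^ 2 := div_nonneg g.t0.le (by positivity)
    have hs1 : t / ρ ^ 2 ≤ 1 := (div_le_one (by positivity)).2 g.tρ
    rw [Real.le_sqrt hs0 hs0, sq]
    nlinarith
  have h8 : t * (√n * ‖v‖ * (η / ρ ^ 2)) ≤ 2 * (Dt m n K p Q A₀ ρ t y * nG m p u t y v) := by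
    refine le_trans ?_ h6
    have := g.η0
    calc t * (√n * ‖v‖ * (η / ρ ^ 2)) = √n * ‖v‖ * η * (t / ρ ^ 2) := by ring
      _ ≤ _ := by gcongr
  refine h5.trans ?_
  have hD0 := g.Dnn
  have hB1 := g.B1
  unfold PP
  calc B * t * (√t ^ n * I (ph m p t y * |(sob m).Γ (uc u v) ((sob m).lap (uc u v))|))
      ≤ B * t * (√t ^ n * (nG m p u t y v * (√n * ‖v‖ * (η / ρ ^ 2)))) := by
        have := g.t0
        gcongr
    _ = B * √t ^ n * nG m p u t y v * (t * (√n * ‖v‖ * (η / ρ ^ 2))) := by ring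
    _ ≤ B * √t ^ n * nG m p u t y v * (2 * (Dt m n K p Q A₀ ρ t y * nG m p u t y v)) := by
        gcongr
    _ = B * Dt m n K p Q A₀ ρ t y * (2 * nG m p u t y v ^ 2) * √t ^ n := by ring
    _ ≤ B * Dt m n K p Q A₀ ρ t y * (2 * L₁ * (B * nG m p u t y v)) ^ 2 * √t ^ n := by
        have e : (2 * L₁ * (B * nG m p u t y v)) ^ 2
            = 4 * (L₁ * B) ^ 2 * nG m p u t y v ^ 2 := by ring
        rw [e]
        have h9 : 1 ≤ L₁ * B := one_le_mul_of_one_le_of_one_le hL1 hB1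
        have : 2 * nG m p u t y v ^ 2 ≤ 4 * (L₁ * B) ^ 2 * nG m p u t y v ^ 2 := by
          apply mul_le_mul_of_nonneg_right _ (sq_nonneg _)
          nlinarith
        gcongr

end GIn

namespace GIn

variable (g : GIn m K o p u uu R Q A₀ η ρ B L₁ ε t y P0 P1 P2 X0 𝒜 cc)
include g

omit g in
theorem ab_nn (F : M →ₘ[m] ℝ) : 0 ≤ |F| := by
  rw [nonneg_iff_ae]
  filter_upwards [H363.abs_ae' F] with x hx
  rw [hx]
  exact abs_nonneg _

theorem phA (h : Env m n K o A p) : (√t ^ n • ph m p t y : M →ₘ[m] ℝ) ∈ (sob m).A := by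
  obtain ⟨_, hC, hBE, hsf, hn⟩ := H924.facts h.hyp
  exact hC.toIsDir.A_smul _ ((H924.cen hC h y).memA hC.toIsDir g.t0)

/-- `P_t(v) := t^{-n/2} ∫ Γ₂(u_v; Ξ)` is nonnegative -/
theorem Pnn (h : Env m n K o A p) (hu : Cfg m n K o p R Q η ρ u uu) (v : E n) :
    0 ≤ (sob m).NN (-|K|) (uc u v) (uc u v) X0 / √t ^ n := by
  obtain ⟨_, hC, hBE, hsf, hn⟩ := H924.facts h.hyp
  have hBE' : (sob m).BE (-|K|) n := hC.be_mono hn (neg_abs_le K) hBE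
  exact div_nonneg (hC.NN_nonneg (hC.bei hn hBE') (H924.uc_testI h hu v).1 g.w.xA g.w.x0)
    g.stn.le

/-- `P_t(v) ≤ B t gam_t(v,v)` -/
theorem Ple (h : Env m n K o A p) (hu : Cfg m n K o p R Q η ρ u uu) (v : E n) :
    (sob m).NN (-|K|) (uc u v) (uc u v) X0 / √t ^ n ≤ B * (t * gm m K p u t y v v) := by
  obtain ⟨_, hC, hBE, hsf, hn⟩ := H924.facts h.hyp
  have hBE' : (sob m).BE (-|K|) n := hC.be_mono hn (neg_abs_le K) hBE
  have hB' := hC.bei hn hBE'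
  have hT := H924.uc_testI h hu v
  have hstn := g.stn
  have h1 := H363.NN_mono hC hB' hT.1 g.w.xA (hC.toIsDir.A_smul (B * t) (g.phA h)) (by
    rw [le_iff_ae]
    filter_upwards [g.w.xw, smul_ae (√t ^ n • ph m p t y : M →ₘ[m] ℝ) (B * t)] with x a1 a2
    rw [a2]
    rw [Real.sq_sqrt g.t0.le] at a1
    exact (le_abs_self _).trans a1)
  rw [hC.NN_smul_φ hB' _ hT.1 hT.1 (g.phA h), hC.NN_smul_φ hB' _ hT.1 hT.1
    ((H924.cen hC h y).memA hC.toIsDir g.t0)] at h1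
  rw [div_le_iff₀ hstn]
  refine h1.trans (le_of_eq ?_)
  unfold gm gam
  ring

/-- `P_t(v) ≤ B² 𝔫'(v)²` -/
theorem Ple' (h : Env m n K o A p) (hu : Cfg m n K o p R Q η ρ u uu) (v : E n) :
    (sob m).NN (-|K|) (uc u v) (uc u v) X0 / √t ^ n ≤ B ^ 2 * nE m K p u Q A₀ ρ t y v ^ 2 := by
  have h1 := g.Ple h hu v
  have h2 := g.gmN v
  have hB : 0 ≤ B := by linarith [g.B1]
  have h3 : nE m K p u Q A₀ ρ t y v ^ 2 = Nt m K p u Q A₀ ρ (3 / 8) t y v v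
      + Dt m n K p Q A₀ ρ t y * Gm m p u t y v v := by
    unfold nE
    exact Real.sq_sqrt (add_nonneg (g.N0 v) (mul_nonneg g.Dnn (g.G0 v)))
  rw [h3]
  have h4 := mul_nonneg g.Dnn (g.G0 v)
  calc _ ≤ B * (t * gm m K p u t y v v) := h1
    _ ≤ B * (B * Nt m K p u Q A₀ ρ (3 / 8) t y v v) := mul_le_mul_of_nonneg_left h2 hB
    _ = B ^ 2 * Nt m K p u Q A₀ ρ (3 / 8) t y v v := by ring
    _ ≤ _ := by
      apply mul_le_mul_of_nonneg_left _ (by positivity)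
      linarith

/-- **(M)** -/
theorem MM (h : Env m n K o A p) (hu : Cfg m n K o p R Q η ρ u uu) (hy : y ∈ ball o (R * ρ))
    (v : E n) :
    |(sob m).NN (-|K|) (uc u v) (uc u v) X0 / √t ^ n
        - I P0 / √t ^ n * Gm m p u t y (𝒜 v) v|
      ≤ cG n K B L₁ * (√(Dt m n K p Q A₀ ρ t y) * (nE m K p u Q A₀ ρ t y v * nG m p u t y v)
        + √ε * (nG m p u t y (𝒜 v) * nE m K p u Q A₀ ρ t y v)) := by
  obtain ⟨_, hC, hBE, hsf, hn⟩ := H924.facts h.hyp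
  have hn1 : 1 ≤ n := by exact_mod_cast hn
  have hBE' : (sob m).BE (-|K|) n := hC.be_mono hn (neg_abs_le K) hBE
  have hB' := hC.bei hn hBE'
  have hb := bT h g.t0 y
  have hT := fun c => H924.uc_testI h hu c
  have hA : ∀ c, uc u c ∈ (sob m).A := fun c => hC.test_A (hT c).1
  have hst : 0 < √t := Real.sqrt_pos.2 g.t0
  have hstn := g.stn
  have hBpos : 0 < B := by linarith [g.B1]
  have hL1 := g.L1
  have hLpos : 0 < L₁ := by linarith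
  have hB1 := g.B1
  have hphA := (H924.cen hC h y).memA hC.toIsDir g.t0
  have heA : (sob m).Γ (bb m y t) (uc u v) - uc u v - uc u (𝒜 v) ∈ (sob m).A :=
    hC.toIsDir.A_sub (hC.toIsDir.A_sub (hC.Γ_mem (hC.bei hn hBE) hb.1 (hT v).1) (hA v)) (hA _)
  have key := est_MM' hC hn hBE' hb g.w.rp (hT v) (g.phA h)
    (μ := (n : ℝ) • 1 - (sob m).lap (bb m y t)) (c0 := 1 / 2 - n * t)
    (q := (sob m).Γ (bb m y t) (bb m y t) - (2 : ℝ) • (bb m y t + (1 / 2 - n * t) • 1))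
    (by abel) (by abel) g.w.wb (g.ub h hu v) g.w.xA g.w.xG g.w.xw ?_ (g.X0Γ h hu hy v)
    (hA (𝒜 v)) heA (by abel) (cc v)
  swap
  · filter_upwards [g.w.supp, grad_of_lip h hu v (y := y) (a := L₁ * √t)
      (L := 2 * (B * nG m p u t y v))
      (by have : 0 ≤ nG m p u t y v := Real.sqrt_nonneg _
          positivity) (g.lip v)] with x h1 h2 hx
    refine (h2 (h1 (Or.inr (Or.inr (Or.inr hx))))).trans ?_
    have hG : 0 ≤ nG m p u t y v := Real.sqrt_nonneg _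
    refine pow_le_pow_left₀ (by positivity) ?_ 2
    have : 0 ≤ B * nG m p u t y v := by positivity
    nlinarith
  have i1 := g.IwE h v
  have l1 := g.glb' v (𝒜 v)
  rw [g.Iw h, H363.QQ_smul_z hC hB' _ (hT v).1 (hT v).1 hphA,
    H363.QQ_smul_z hC hB' _ hb.1 hb.1 hphA, I_w, I_w, abs_neg, abs_abs, Real.sq_sqrt g.t0.le]
    at key
  have e1 := g.e1.mu
  have e2 := g.e1.q
  have e3 := g.e1.qq
  have e4 := g.gmN v
  have e5 := g.NE v
  have e6 := g.Kt hu hn1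
  have hQu : H363.QQ (sob m) (-|K|) n (uc u v) (uc u v) (ph m p t y) ≤ gm m K p u t y v v :=
    H363.QQ_le_NN hC hn ((H924.cen hC h y).nonneg t g.t0)
  have hQb : H363.QQ (sob m) (-|K|) n (bb m y t) (bb m y t) (ph m p t y)
      ≤ B * Dt m n K p Q A₀ ρ t y := e3
  have t1 : ∀ J, J ≤ √t ^ n * (B * √t * (√(Dt m n K p Q A₀ ρ t y) * nE m K p u Q A₀ ρ t y v)) →
      B * (Dt m n K p Q A₀ ρ t y + cB n K L₁) * (2 * L₁ * (B * nG m p u t y v)) / √t * J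
        ≤ √t ^ n * (2 * B ^ 3 * L₁ * (1 + cB n K L₁) * (√(Dt m n K p Q A₀ ρ t y) *
          (nE m K p u Q A₀ ρ t y v * nG m p u t y v))) := by
    intro J hJ
    have hD0 := g.Dnn
    have hD1 := g.D1
    have hcb0 : 0 ≤ cB n K L₁ := Real.sqrt_nonneg _
    have hG : 0 ≤ nG m p u t y v := Real.sqrt_nonneg _
    have hE : 0 ≤ nE m K p u Q A₀ ρ t y v := Real.sqrt_nonneg _
    calc B * (Dt m n K p Q A₀ ρ t y + cB n K L₁) * (2 * L₁ * (B * nG m p u t y v)) / √t * J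
        ≤ B * (Dt m n K p Q A₀ ρ t y + cB n K L₁) * (2 * L₁ * (B * nG m p u t y v)) / √t *
          (√t ^ n * (B * √t * (√(Dt m n K p Q A₀ ρ t y) * nE m K p u Q A₀ ρ t y v))) :=
          mul_le_mul_of_nonneg_left hJ (by positivity)
      _ = √t ^ n * (2 * B ^ 3 * L₁ * (Dt m n K p Q A₀ ρ t y + cB n K L₁) *
          (√(Dt m n K p Q A₀ ρ t y) * (nE m K p u Q A₀ ρ t y v * nG m p u t y v))) := by
          field_simp
      _ ≤ _ := by gcongr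
  have t1' := t1 _ i1
  set D := Dt m n K p Q A₀ ρ t y with hD
  have hD0 : 0 ≤ D := g.Dnn
  have hD1 : D ≤ 1 := g.D1
  set cb := cB n K L₁ with hcb
  have hcb0 : 0 ≤ cb := Real.sqrt_nonneg _
  have d1 := g.DGG v v
  set Gv := nG m p u t y v with hGv
  set Ev := nE m K p u Q A₀ ρ t y v with hEv
  set Gav := nG m p u t y (𝒜 v) with hGav
  have hGv0 : 0 ≤ Gv := Real.sqrt_nonneg _
  have hEv0 : 0 ≤ Ev := Real.sqrt_nonneg _
  have hGav0 : 0 ≤ Gav := Real.sqrt_nonneg _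
  have hsD : 0 ≤ √D := Real.sqrt_nonneg _
  have hg0 := g.g0 v
  -- term 2
  have t2 : B * (2 * L₁ * (B * Gv)) * √t * (√(√t ^ n * H363.QQ (sob m) (-|K|) n (uc u v) (uc u v)
        (ph m p t y)) * √(√t ^ n * H363.QQ (sob m) (-|K|) n (bb m y t) (bb m y t) (ph m p t y)))
      ≤ √t ^ n * (2 * B ^ 3 * L₁ * (√D * (Ev * Gv))) := by
    rw [Real.sqrt_mul hstn.le, Real.sqrt_mul hstn.le]
    have s1 : √t * √(H363.QQ (sob m) (-|K|) n (uc u v) (uc u v) (ph m p t y)) ≤ √B * Ev := by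
      calc √t * √(H363.QQ (sob m) (-|K|) n (uc u v) (uc u v) (ph m p t y))
          ≤ √t * √(gm m K p u t y v v) :=
            mul_le_mul_of_nonneg_left (Real.sqrt_le_sqrt hQu) hst.le
        _ = √(t * gm m K p u t y v v) := (Real.sqrt_mul g.t0.le _).symm
        _ ≤ √(B * Nt m K p u Q A₀ ρ (3 / 8) t y v v) := Real.sqrt_le_sqrt e4
        _ = √B * √(Nt m K p u Q A₀ ρ (3 / 8) t y v v) := Real.sqrt_mul hBpos.le _
        _ ≤ √B * Ev := mul_le_mul_of_nonneg_left e5 (Real.sqrt_nonneg _)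
    have s2 : √(H363.QQ (sob m) (-|K|) n (bb m y t) (bb m y t) (ph m p t y)) ≤ √B * √D := by
      rw [← Real.sqrt_mul hBpos.le]
      exact Real.sqrt_le_sqrt hQb
    have s3 := Real.mul_self_sqrt hstn.le
    have s4 := Real.mul_self_sqrt hBpos.le
    calc B * (2 * L₁ * (B * Gv)) * √t * (√(√t ^ n) * √(H363.QQ (sob m) (-|K|) n (uc u v) (uc u v)
          (ph m p t y)) * (√(√t ^ n) * √(H363.QQ (sob m) (-|K|) n (bb m y t) (bb m y t)
          (ph m p t y))))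
        = (2 * B ^ 2 * L₁ * Gv) * (√(√t ^ n) * √(√t ^ n)) *
          ((√t * √(H363.QQ (sob m) (-|K|) n (uc u v) (uc u v) (ph m p t y))) *
            √(H363.QQ (sob m) (-|K|) n (bb m y t) (bb m y t) (ph m p t y))) := by ring
      _ ≤ (2 * B ^ 2 * L₁ * Gv) * (√t ^ n) * ((√B * Ev) * (√B * √D)) := by
          rw [s3]
          apply mul_le_mul_of_nonneg_left _ (by positivity)
          exact mul_le_mul s1 s2 (Real.sqrt_nonneg _) (by positivity)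
      _ = √t ^ n * (2 * B ^ 2 * L₁ * (√B * √B) * (√D * (Ev * Gv))) := by ring
      _ = _ := by rw [s4]; ring
  -- term 3
  have hμ0 : 0 ≤ PP m p t y |(n : ℝ) • 1 - (sob m).lap (bb m y t)| :=
    (H924.cen hC h y).av_nonneg g.t0 (ab_nn _)
  have hq0 : 0 ≤ PP m p t y |(sob m).Γ (bb m y t) (bb m y t)
      - (2 : ℝ) • (bb m y t + (1 / 2 - n * t) • 1)| :=
    (H924.cen hC h y).av_nonneg g.t0 (ab_nn _)
  have t3 : B * (2 * L₁ * (B * Gv)) ^ 2 * ((cb + 2 * D + 1) *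
        (√t ^ n * PP m p t y |(n : ℝ) • 1 - (sob m).lap (bb m y t)|) * (1 + (n : ℝ)⁻¹)
        + (cb + D + 1) / t * (√t ^ n * PP m p t y |(sob m).Γ (bb m y t) (bb m y t)
          - (2 : ℝ) • (bb m y t + (1 / 2 - n * t) • 1)|)
        + (3 * D + |K| * (cb + 1) * t) * √t ^ n)
      ≤ √t ^ n * (4 * (B ^ 4 * L₁ ^ 2) * (4 * cb + 12) * (√D * (Ev * Gv))) := by
    have hni : (1 : ℝ) + (n : ℝ)⁻¹ ≤ 2 := by
      have : (n : ℝ)⁻¹ ≤ 1 := inv_le_one_of_one_le₀ (by exact_mod_cast hn1)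
      linarith
    have hni0 : (0 : ℝ) ≤ 1 + (n : ℝ)⁻¹ := by positivity
    have s1 : (cb + 2 * D + 1) * (√t ^ n * PP m p t y |(n : ℝ) • 1 - (sob m).lap (bb m y t)|)
        * (1 + (n : ℝ)⁻¹) ≤ (cb + 3) * (√t ^ n * (B * D)) * 2 := by
      have : cb + 2 * D + 1 ≤ cb + 3 := by linarith
      gcongr
    have s2 : (cb + D + 1) / t * (√t ^ n * PP m p t y |(sob m).Γ (bb m y t) (bb m y t)
          - (2 : ℝ) • (bb m y t + (1 / 2 - n * t) • 1)|)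
        ≤ (cb + 2) / t * (√t ^ n * (B * (t * D))) := by
      have := g.t0
      have : cb + D + 1 ≤ cb + 2 := by linarith
      gcongr
    have s2' : (cb + 2) / t * (√t ^ n * (B * (t * D))) = (cb + 2) * (√t ^ n * (B * D)) := by
      have := g.t0.ne'
      field_simp
    have s3 : (3 * D + |K| * (cb + 1) * t) * √t ^ n ≤ (cb + 4) * (√t ^ n * (B * D)) := by
      have a1 : |K| * (cb + 1) * t ≤ (cb + 1) * D := by
        calc |K| * (cb + 1) * t = (cb + 1) * (|K| * t) := by ring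
          _ ≤ _ := mul_le_mul_of_nonneg_left e6 (by positivity)
      have a2 : D ≤ B * D := le_mul_of_one_le_left hD0 hB1
      calc (3 * D + |K| * (cb + 1) * t) * √t ^ n ≤ (3 * D + (cb + 1) * D) * √t ^ n := by gcongr
        _ = (cb + 4) * (√t ^ n * D) := by ring
        _ ≤ _ := by gcongr
    calc _ ≤ B * (2 * L₁ * (B * Gv)) ^ 2 * ((cb + 3) * (√t ^ n * (B * D)) * 2
          + (cb + 2) * (√t ^ n * (B * D)) + (cb + 4) * (√t ^ n * (B * D))) := by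
          apply mul_le_mul_of_nonneg_left _ (by positivity)
          linarith
      _ = √t ^ n * (4 * (B ^ 4 * L₁ ^ 2) * (4 * cb + 12) * (D * (Gv * Gv))) := by ring
      _ ≤ _ := by gcongr
  have esym : Gm m p u t y (𝒜 v) v = Gm m p u t y v (𝒜 v) := by
    unfold Gm
    rw [hC.symm _ (hA (𝒜 v)).1 _ (hA v).1]
  have fin : |(sob m).NN (-|K|) (uc u v) (uc u v) X0 - I P0 * Gm m p u t y v (𝒜 v)|
      ≤ √t ^ n * (2 * B ^ 3 * L₁ * (√D * (Ev * Gv)) + 4 * (B ^ 4 * L₁ ^ 2) * (4 * cb + 12) * (√D * (Ev * Gv))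
        + 2 * B ^ 3 * L₁ * (1 + cb) * (√D * (Ev * Gv)) + B * (√ε * (Gav * Ev))) := by
    have e1 : (sob m).NN (-|K|) (uc u v) (uc u v) X0 - I P0 * Gm m p u t y v (𝒜 v)
        = ((sob m).NN (-|K|) (uc u v) (uc u v) X0 - I (P0 * (sob m).Γ (uc u v) (uc u (𝒜 v))))
          + (I (P0 * (sob m).Γ (uc u v) (uc u (𝒜 v))) - I P0 * Gm m p u t y v (𝒜 v)) := by ring
    rw [e1]
    refine (abs_add_le _ _).trans ?_
    linarith
  rw [esym]
  have e7 : (sob m).NN (-|K|) (uc u v) (uc u v) X0 / √t ^ n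
      - I P0 / √t ^ n * Gm m p u t y v (𝒜 v)
      = ((sob m).NN (-|K|) (uc u v) (uc u v) X0 - I P0 * Gm m p u t y v (𝒜 v)) / √t ^ n := by
    ring
  rw [e7, abs_div, abs_of_pos hstn, div_le_iff₀ hstn]
  refine fin.trans ?_
  rw [mul_comm (√t ^ n)]
  apply mul_le_mul_of_nonneg_right _ hstn.le
  unfold cG
  rw [← hcb]
  have q1 : 0 ≤ √D * (Ev * Gv) := by positivity
  have q2 : 0 ≤ √ε * (Gav * Ev) := by positivity
  exact fin_M hB1 g.L1 hcb0 q1 q2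

end GIn

end vertex

end Vale.Agent.P242.H771
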