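import Vale.Agent.P242.H771.GLd
import Vale.Agent.P242.H852.E6FV
import Vale.Agent.P242.H751.P3g
import Vale.Agent.P242.H358.LocLip

/-! P242, GL1-d (helper771): the inputs `GIn` from `Env`, `Cfg`, `DropS`, `TT`. -/

set_option linter.all false

open MeasureTheory Filter Topology Set Metric
open scoped ENNReal NNReal InnerProductSpace

universe u

namespace Vale.Agent.P242.H771

open Vale.Agent.P233 Vale.Agent.P233.RA Vale.Agent.P242.H990 Vale.Agent.P242.H71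
open Vale.Agent.P242.H655

variable {M : Type u} [MetricSpace M] [CompleteSpace M] [SecondCountableTopology M]
  [MeasurableSpace M] [BorelSpace M] {m : Measure M} {n : ℕ} {K A : ℝ} {o : M} {p : ℝ → M → M → ℝ}
  {R Q η ρ A₀ B B' L₁ L₁' ε t : ℝ} {u : Fin n → M →ₘ[m] ℝ} {uu : M → E n} {y : M}
  {P0 P1 P2 X0 : M →ₘ[m] ℝ} {𝒜 : E n →ₗ[ℝ] E n} {cc : E n → ℝ}

theorem WAt.mono (h : WAt m n p B L₁ t y P0 P1 P2 X0) (hB : B ≤ B') (hL : L₁ ≤ L₁') :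
    WAt m n p B' L₁' t y P0 P1 P2 X0 := by
  have a0 := h.wb.a0
  have r0 := h.wb.r0
  have hP : 0 ≤ I P0 := by
    have := h.v_ge
    have h2 : 0 < √t ^ n := by positivity
    by_contra hc
    push Not at hc
    nlinarith
  refine ⟨h.rp, ⟨a0.trans hB, r0, h.wb.w0, h.wb.w1, ?_, ?_, ?_⟩, h.xA, h.xG, ?_, h.x0, h.eq, ?_,
    h.v_le.trans (mul_le_mul_of_nonneg_right hB (by positivity)),
    h.v_ge.trans (mul_le_mul_of_nonneg_right hB hP)⟩
  · filter_upwards [h.wb.p0, h.wb.w0] with x h1 h2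
    exact h1.trans (mul_le_mul_of_nonneg_right hB h2)
  · filter_upwards [h.wb.p1, h.wb.w0] with x h1 h2
    exact h1.trans (mul_le_mul_of_nonneg_right (div_le_div_of_nonneg_right hB (by positivity)) h2)
  · filter_upwards [h.wb.p2, h.wb.w0] with x h1 h2
    exact h1.trans (mul_le_mul_of_nonneg_right (div_le_div_of_nonneg_right hB (by positivity)) h2)
  · filter_upwards [h.xw, h.wb.w0] with x h1 h2
    refine h1.trans (mul_le_mul_of_nonneg_right ?_ h2)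
    exact mul_le_mul_of_nonneg_right hB (by positivity)
  · filter_upwards [h.supp] with x h1 h2
    exact (h1 h2).trans_le (mul_le_mul_of_nonneg_right hL r0.le)

theorem E1At.mono (h : E1At m n K p Q A₀ ρ B t y) (hB : B ≤ B') (ht : 0 ≤ t)
    (hD : 0 ≤ Dt m n K p Q A₀ ρ t y) : E1At m n K p Q A₀ ρ B' t y :=
  ⟨h.mu.trans (mul_le_mul_of_nonneg_right hB hD),
    h.q.trans (mul_le_mul_of_nonneg_right hB (by positivity)),
    h.qq.trans (mul_le_mul_of_nonneg_right hB hD)⟩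

/-- the Lipschitz bound on a ball of radius `L₁ √t`, with `L₁` independent of `Q` -/
theorem lip_at (h : Env m n K o A p) : ∃ ε₁, 0 < ε₁ ∧ ∀ (R Q ε' η ρ : ℝ)
    (u : Fin n → M →ₘ[m] ℝ) (uu : M → E n), 4 * A ^ 2 * (24 * A ^ 2 * 1) ≤ Q → 32 * A * 1 ≤ R →
    0 ≤ ε' → ε' ≤ ε₁ → 0 ≤ η → η ≤ ε₁ → Cfg m n K o p R Q η ρ u uu → ∀ x ∈ ball o (R / 2 * ρ),
    ∀ t, 0 < t → t ≤ ρ ^ 2 → H155.TTx m K p Q ε' ρ u x t → ∀ L₁, 0 ≤ L₁ → ∀ (c : E n) z z',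
      dist x z < L₁ * √t → dist x z' < L₁ * √t → |⟪c, uu z⟫_ℝ - ⟪c, uu z'⟫_ℝ| ≤
        √(H751.cP n A * Real.exp (25 * L₁ ^ 2 / (8 * A))) * nG m p u t x c * dist z z' := by
  obtain ⟨ε₁, hε₁, H⟩ := H751.p3gX h (L := 1) le_rfl
  refine ⟨ε₁, hε₁, ?_⟩
  intro R Q ε' η ρ u uu hQ hR h0 h1 h2 h3 hu x hx t ht htρ hT L₁ hL₁ c z z' hz hz'
  have hA0 := h.kb.pos
  have key := H R Q ε' η ρ u uu hQ hR h0 h1 h2 h3 hu x hx t ht htρ hT t (by rw [div_one])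
    (by rw [one_mul]) c
  have hG : 0 ≤ Gm m p u t x c c := H597.Gm_nonneg h hu x c ht
  have hst : 0 < √t := Real.sqrt_pos.2 ht
  have hcP : 0 ≤ H751.cP n A := by linarith [H751.cP_ge (n := n) h.kb.one_le]
  have h4 := H358.loc_lip h hu c (z₀ := x) (r := L₁ * √t)
    (L := √(H751.cP n A * Real.exp (25 * L₁ ^ 2 / (8 * A))) * nG m p u t x c)
    (mul_nonneg (Real.sqrt_nonneg _) (Real.sqrt_nonneg _)) (by
      filter_upwards [key] with w hw hd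
      refine hw.trans ?_
      unfold nG
      rw [mul_pow, Real.sq_sqrt (by positivity), Real.sq_sqrt hG]
      apply mul_le_mul_of_nonneg_right _ hG
      apply mul_le_mul_of_nonneg_left _ hcP
      apply Real.exp_le_exp.2
      rw [dist_comm] at hd
      have h5 : dist x w ^ 2 ≤ (5 * (L₁ * √t)) ^ 2 := pow_le_pow_left₀ dist_nonneg hd.le 2
      have h6 : (5 * (L₁ * √t)) ^ 2 = 25 * L₁ ^ 2 * t := by
        rw [mul_pow, mul_pow, Real.sq_sqrt ht.le]; ring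
      rw [h6] at h5
      rw [div_le_div_iff₀ (by positivity) (by positivity)]
      have h7 := mul_le_mul_of_nonneg_right h5 (by positivity : 0 ≤ 8 * A)
      calc dist x w ^ 2 * (8 * A) ≤ 25 * L₁ ^ 2 * t * (8 * A) := h7
        _ = 25 * L₁ ^ 2 * (8 * A * t) := by ring)
  have h5 := h4 z (by rw [mem_ball, dist_comm]; exact hz) z' (by rw [mem_ball, dist_comm]; exact hz')
  rwa [inner_sub_right] at h5

theorem inb_aux {ρ R M' B₁ t : ℝ} {y z : M} (hρ : 0 < ρ) (hR : 1 ≤ R) (hM : 0 < M')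
    (hMB : 4 * B₁ ^ 2 ≤ M') (hB₁ : 0 ≤ B₁) (htM : t ≤ ρ ^ 2 / M') (hy : y ∈ ball o (R / 4 * ρ))
    (hz : dist y z < B₁ * √t) : z ∈ ball o (R * ρ) := by
  rw [mem_ball, dist_comm] at hy ⊢
  have h2 : B₁ * √t ≤ ρ / 2 := by
    have h3 : √t ≤ ρ / √M' := by
      have h31 : ρ / √M' = √(ρ ^ 2 / M') := by
        rw [Real.sqrt_div (sq_nonneg ρ), Real.sqrt_sq hρ.le]
      rw [h31]
      exact Real.sqrt_le_sqrt htM
    have h4 : 2 * B₁ ≤ √M' := by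
      rw [Real.le_sqrt (by linarith) (by linarith)]
      linarith [hMB]
    have h5 : 0 < √M' := Real.sqrt_pos.2 hM
    calc B₁ * √t ≤ B₁ * (ρ / √M') := mul_le_mul_of_nonneg_left h3 (by linarith)
      _ = (B₁ * ρ) / √M' := by ring
      _ ≤ ρ / 2 := by
        rw [div_le_div_iff₀ h5 (by norm_num)]
        nlinarith
  have h6 := dist_triangle o y z
  nlinarith

/-- the constant of `gin_core` -/
noncomputable def cI (n : ℕ) (A B₁ : ℝ) : ℝ :=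
  B₁ + √(H751.cP n A * Real.exp (25 * B₁ ^ 2 / (8 * A)))
    + 2 * (H990.cG n A (8 * A ^ 2 * 1) 0 * Real.exp (2 * A))

theorem cI_ge (hA : 1 ≤ A) {B₁ : ℝ} :
    B₁ ≤ cI n A B₁ ∧ (0 ≤ B₁ → √(H751.cP n A * Real.exp (25 * B₁ ^ 2 / (8 * A))) ≤ cI n A B₁) ∧
      (0 ≤ B₁ → 2 * (H990.cG n A (8 * A ^ 2 * 1) 0 * Real.exp (2 * A)) ≤ cI n A B₁) := by
  have h1 : 0 ≤ √(H751.cP n A * Real.exp (25 * B₁ ^ 2 / (8 * A))) := Real.sqrt_nonneg _
  have h2 : 0 ≤ 2 * (H990.cG n A (8 * A ^ 2 * 1) 0 * Real.exp (2 * A)) := by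
    have := H990.cG_pos (n := n) (C₀ := 0) hA (by positivity : 0 < 8 * A ^ 2 * 1)
    positivity
  unfold cI
  refine ⟨by linarith, fun h => by linarith, fun h => by linarith⟩

theorem gin_core (h : Env m n K o A p) {M' B₁ δ ε ε' : ℝ}
    (hlip : ∀ (v : E n) z z', dist y z < B₁ * √t → dist y z' < B₁ * √t →
      |⟪v, uu z⟫_ℝ - ⟪v, uu z'⟫_ℝ| ≤
        √(H751.cP n A * Real.exp (25 * B₁ ^ 2 / (8 * A))) * nG m p u t y v * dist z z')
    (hu : Cfg m n K o p R Q η ρ u uu) (hD : DropS m n K o p R Q δ ρ)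
    (hTx : H155.TTx m K p Q ε' ρ u y t) (hB₁ : 1 ≤ B₁)
    (hQ1 : 1 ≤ Q) (hQ8 : 8 * A ^ 2 ≤ Q) (hR1 : 1 ≤ R) (hA₀ : 0 < A₀) (hM1 : 1 ≤ M')
    (hMB : 4 * B₁ ^ 2 ≤ M') (hε : 0 < ε) (hε'0 : 0 < ε') (k2 : ε' ≤ 1 / 32)
    (k3 : 4 * ε' + 2 * A₀ ≤ ε) (k5 : δ + A₀ ≤ 1) (hη0 : 0 < η) (l6 : ρ ≤ 1)
    (m1 : (1 + 24 * n) * η ≤ 1 / 2) (m2 : 5 * n * Q * η ≤ 1 / 16) (m3 : n * η ≤ A₀)
    (hy : y ∈ ball o (R / 4 * ρ)) (ht : 0 < t) (htM : t ≤ ρ ^ 2 / M')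
    (hW : WAt m n p B₁ B₁ t y P0 P1 P2 X0)
    (hglb : ∀ c c' : E n, |I (P0 * (sob m).Γ (uc u c) (uc u c')) - I P0 * Gm m p u t y c c'|
        ≤ B₁ * (√t ^ n * (√(Nt m K p u Q A₀ ρ (3 / 8) t y c c) *
          √(Nt m K p u Q A₀ ρ (3 / 8) t y c' c'))))
    (hE1 : E1At m n K p Q A₀ ρ B₁ t y)
    (herr : ∀ v, PP m p t y |eE m p u t y v (𝒜 v) (cc v)| ≤ B₁ * √t * xE m K p u Q A₀ ρ t y v) :
    GIn m K o p u uu R Q A₀ η ρ (cI n A B₁) B₁ ε t y P0 P1 P2 X0 𝒜 cc := by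
  have hA1 := h.kb.one_le
  have hn2 := h.hyp.two_le
  have hn1 : 1 ≤ n := by omega
  obtain ⟨i1, i2, i3⟩ := cI_ge (n := n) hA1 (B₁ := B₁)
  have hB0 : 0 ≤ B₁ := by linarith
  have i2 := i2 hB0
  have i3 := i3 hB0
  have hB : 1 ≤ cI n A B₁ := hB₁.trans i1
  have hρ := hu.ρ_pos
  have hM0 : 0 < M' := by linarith
  have htρ : t ≤ ρ ^ 2 := htM.trans (div_le_self (by positivity) hM1)
  have hyR : y ∈ ball o (R * ρ) := ball_subset_ball (by nlinarith) hy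
  have hρ2 : ρ ^ 2 ≤ Q * ρ ^ 2 := le_mul_of_one_le_left (sq_nonneg ρ) hQ1
  have htQ : t ≤ Q * ρ ^ 2 := htρ.trans hρ2
  have hDnn := H852.Dt_nonneg (Q := Q) (ρ := ρ) h hA₀.le y ht htQ
  have hG0 : ∀ v, 0 ≤ Gm m p u t y v v := fun v => H597.Gm_nonneg h hu y v ht
  have hN0 : ∀ v : E n, 0 ≤ Nt m K p u Q A₀ ρ (3 / 8) t y v v := fun v => by
    refine le_trans ?_ (H852.bg_le_N h hu hQ1 hA₀ y ht htρ v)
    positivity
  refine
    { t0 := ht, tρ := htρ, t1 := htρ.trans (pow_le_one₀ hρ.le l6), Q1 := hQ1, B1 := hB, L1 := hB₁,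
      η0 := hη0.le, A0 := hA₀, ηA := m3, w := hW.mono i1 le_rfl, glb := ?_,
      e1 := hE1.mono i1 ht.le hDnn, err := ?_, lip := ?_,
      inb := fun z hz => inb_aux hρ hR1 hM0 hMB hB0 htM hy hz, gmN := ?_,
      nε := ?_, low := ?_, D0 := H852.Dt_floor h y ht htQ, D1 := ?_, G0 := hG0, N0 := hN0,
      g0 := fun v => H597.gm_nonneg h hu y v ht, ε0 := hε.le }
  · intro c c'
    exact (hglb c c').trans (mul_le_mul_of_nonneg_right i1 (by positivity))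
  · intro v
    refine (herr v).trans ?_
    have : 0 ≤ xE m K p u Q A₀ ρ t y v := mul_nonneg (Real.sqrt_nonneg _) (Real.sqrt_nonneg _)
    exact mul_le_mul_of_nonneg_right (mul_le_mul_of_nonneg_right i1 (Real.sqrt_nonneg _)) this
  · intro v z z' hz hz'
    refine (hlip v z z' hz hz').trans ?_
    have hG : 0 ≤ nG m p u t y v := Real.sqrt_nonneg _
    refine mul_le_mul_of_nonneg_right ?_ dist_nonneg
    have h2 := mul_le_mul_of_nonneg_right i2 hG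
    have h3 : 0 ≤ cI n A B₁ * nG m p u t y v := mul_nonneg (by linarith) hG
    linarith
  · intro v
    refine (H852.gm_le_N h hu hQ1 hQ8 hA₀.le hyR le_rfl ht le_rfl (by rw [one_mul]) htρ v).trans ?_
    exact mul_le_mul_of_nonneg_right i3 (hN0 v)
  · intro v
    refine (H852.N_le_G h hu hQ1 hn1 hA₀ hyR ht htρ hTx hε'0.le k2 m1 m2 v).trans ?_
    exact mul_le_mul_of_nonneg_right k3 (hG0 v)
  · intro v
    have := H597.G_lower h hu hQ1 hyR ht htρ hTx (by linarith) hη0.le m1 v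
    linarith
  · exact (H852.Dt_le (Q := Q) h hA₀.le hD hyR ht htρ hQ1).trans k5

/-- **the inputs of GL1-d** -/
theorem gin_ev (h : Env m n K o A p) : EvO fun Q R Λ => ∀ B₁, 1 ≤ B₁ → ∀ ε, 0 < ε →
    EvI fun A₀ M' ε' η δ ρ => ∀ (u : Fin n → M →ₘ[m] ℝ) (uu : M → E n),
      Cfg m n K o p R Q η ρ u uu → DropS m n K o p R Q δ ρ → TT m K o p (R / 2) Q ε' ρ u →
      ∀ y ∈ ball o (R / 4 * ρ), ∀ t, 0 < t → t ≤ ρ ^ 2 / M' →
      ∀ P0 P1 P2 X0 : M →ₘ[m] ℝ, WAt m n p B₁ B₁ t y P0 P1 P2 X0 →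
      (∀ c c' : E n, |I (P0 * (sob m).Γ (uc u c) (uc u c')) - I P0 * Gm m p u t y c c'|
        ≤ B₁ * (√t ^ n * (√(Nt m K p u Q A₀ ρ (3 / 8) t y c c) *
          √(Nt m K p u Q A₀ ρ (3 / 8) t y c' c')))) →
      E1At m n K p Q A₀ ρ B₁ t y →
      ∀ (𝒜 : E n →ₗ[ℝ] E n) (cc : E n → ℝ),
      (∀ v, PP m p t y |eE m p u t y v (𝒜 v) (cc v)| ≤ B₁ * √t * xE m K p u Q A₀ ρ t y v) →
        GIn m K o p u uu R Q A₀ η ρ (cI n A B₁) B₁ ε t y P0 P1 P2 X0 𝒜 cc := by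
  obtain ⟨ε₀, hε₀, hlip⟩ := lip_at h
  have hA1 := h.kb.one_le
  have hA0 := h.kb.pos
  have hA2 : 1 ≤ A ^ 2 := one_le_pow₀ hA1
  have hn2 := h.hyp.two_le
  have hn1 : 1 ≤ n := by omega
  have hn : (1 : ℝ) ≤ n := by exact_mod_cast hn1
  refine ⟨max (4 * A ^ 2 * (24 * A ^ 2 * 1)) 1, le_max_right _ _, fun Q hQ => ?_⟩
  refine ⟨max (32 * A * 1) 1, le_max_right _ _, fun R hR => ⟨16, le_rfl, fun Λ hΛ => ?_⟩⟩
  intro B₁ hB₁ ε hε
  have hQ1 : 1 ≤ Q := (le_max_right _ _).trans hQ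
  have hQA := (le_max_left _ _).trans hQ
  have hR1 : 1 ≤ R := (le_max_right _ _).trans hR
  have hRA := (le_max_left _ _).trans hR
  have hQ8 : 8 * A ^ 2 ≤ Q := by nlinarith
  have hQ0 : 0 < Q := by linarith
  have hn0 : (0 : ℝ) < n := by linarith
  refine ⟨min (min ε₀ (1 / 32)) (min (ε / 16) (1 / 2)), by positivity, fun A₀ hA₀ hA₀1 => ?_⟩
  refine ⟨max (4 * B₁ ^ 2) 1, le_max_right _ _, fun M' hM => ?_⟩
  refine ⟨min (min ε₀ (1 / (2 * (1 + 24 * n)))) (min (1 / (16 * (5 * n * Q)))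
    (min (A₀ / n) (1 / 2))), by positivity, ?_⟩
  intro ε' η δ ρ hε'0 hε' hη0 hη hδ hρη u uu hu hD hTT y hy t ht htM P0 P1 P2 X0 hW hglb hE1 𝒜 cc
    herr
  have hρ := hu.ρ_pos
  have hM1 : 1 ≤ M' := (le_max_right _ _).trans hM
  have hMB : 4 * B₁ ^ 2 ≤ M' := (le_max_left _ _).trans hM
  have k1 : ε' ≤ ε₀ := hε'.trans ((min_le_left _ _).trans (min_le_left _ _))
  have k2 : ε' ≤ 1 / 32 := hε'.trans ((min_le_left _ _).trans (min_le_right _ _))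
  have k3 : ε' ≤ ε / 16 := hε'.trans ((min_le_right _ _).trans (min_le_left _ _))
  have k4 : A₀ ≤ ε / 16 := hA₀1.trans ((min_le_right _ _).trans (min_le_left _ _))
  have k5 : A₀ ≤ 1 / 2 := hA₀1.trans ((min_le_right _ _).trans (min_le_right _ _))
  have l1 : η ≤ ε₀ := hη.trans ((min_le_left _ _).trans (min_le_left _ _))
  have l2 : η ≤ 1 / (2 * (1 + 24 * n)) := hη.trans ((min_le_left _ _).trans (min_le_right _ _))
  have l3 : η ≤ 1 / (16 * (5 * n * Q)) := hη.trans ((min_le_right _ _).trans (min_le_left _ _))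
  have l4 : η ≤ A₀ / n :=
    hη.trans ((min_le_right _ _).trans ((min_le_right _ _).trans (min_le_left _ _)))
  have l5 : δ ≤ 1 / 2 :=
    hδ.trans ((min_le_right _ _).trans ((min_le_right _ _).trans (min_le_right _ _)))
  have l6 : ρ ≤ 1 / 2 :=
    hρη.trans ((min_le_right _ _).trans ((min_le_right _ _).trans (min_le_right _ _)))
  have m1 : (1 + 24 * n) * η ≤ 1 / 2 := by
    rw [le_div_iff₀ (by positivity)] at l2
    linarith only [l2]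
  have m2 : 5 * n * Q * η ≤ 1 / 16 := by
    rw [le_div_iff₀ (by positivity)] at l3
    linarith only [l3]
  have m3 : n * η ≤ A₀ := by
    rw [le_div_iff₀ hn0] at l4
    linarith only [l4]
  have hyR2 : y ∈ ball o (R / 2 * ρ) := ball_subset_ball (by nlinarith only [hR1, hρ]) hy
  have htρ : t ≤ ρ ^ 2 := htM.trans (div_le_self (by positivity) hM1)
  have hTx := H155.TTx_of_TT hTT hyR2 ht
  exact gin_core h (hlip R Q ε' η ρ u uu hQA hRA hε'0.le k1 hη0.le l1 hu y hyR2 t ht htρ hTx B₁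
      (by linarith only [hB₁])) hu hD hTx hB₁ hQ1 hQ8 hR1 hA₀ hM1 hMB hε hε'0 k2
      (by linarith only [k3, k4, hε]) (by linarith only [k5, l5]) hη0 (by linarith only [l6]) m1 m2 m3
      hy ht htM hW hglb hE1 herr

end Vale.Agent.P242.H771
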