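import Vale.Agent.P242.H771.Sub
import Vale.Agent.P242.H924.Uc
import Vale.Agent.P242.H990.LipG
import Vale.Agent.P242.H254.E1v
import Vale.Agent.P242.H751.SS

/-! P242, GL1-d (helper771): bounds of `u_v` on the support of the radial weights (`H363.UB`). -/

set_option linter.all false

open MeasureTheory Filter Topology Set Metric
open scoped ENNReal NNReal InnerProductSpace

universe u

namespace Vale.Agent.P242.H771

open Vale.Agent.P233 Vale.Agent.P233.RA Vale.Agent.P242.H990 Vale.Agent.P242.H71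
open Vale.Agent.P242.H655

variable {M : Type u} [MetricSpace M] [CompleteSpace M] [SecondCountableTopology M]
  [MeasurableSpace M] [BorelSpace M] {m : Measure M} {n : ℕ} {K A : ℝ} {o : M} {p : ℝ → M → M → ℝ}
  {R Q η ρ : ℝ} {u : Fin n → M →ₘ[m] ℝ} {uu : M → E n}

/-- from heat averages to an almost everywhere bound -/
theorem ae_le_of_PP (h : Env m n K o A p) {F : M →ₘ[m] ℝ} (hF : MemLp F 2 m) {U : Set M}
    (hU : MeasurableSet U) {c s₀ : ℝ} (hs₀ : 0 < s₀)
    (hc : ∀ x ∈ U, ∀ s, 0 < s → s ≤ s₀ → PP m p s x F ≤ c) : ∀ᵐ x ∂m, x ∈ U → F x ≤ c := by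
  have H := H751.env_heat h
  have hlim := H.cont F hF 0 le_rfl
  rw [H.zero F hF] at hlim
  set g : M → ℝ := U.indicator fun x => (max (F x - c) 0) ^ 2 with hg
  have hg0 : ∀ x, 0 ≤ g x := fun x => by
    simp only [hg]
    exact Set.indicator_nonneg (fun x _ => sq_nonneg _) x
  have hFm : AEStronglyMeasurable F m := F.aestronglyMeasurable
  have hgm : AEStronglyMeasurable g m := by
    refine AEStronglyMeasurable.indicator ?_ hU
    have h1 : AEStronglyMeasurable (fun x => F x - c) m := hFm.sub aestronglyMeasurable_const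
    have h2 : AEStronglyMeasurable (fun x => max (F x - c) 0) m :=
      (continuous_id.max continuous_const).comp_aestronglyMeasurable h1
    exact h2.pow 2
  have key : ∀ s, 0 < s → s ≤ s₀ → ∀ᵐ x ∂m, g x ≤ (((sob m).P s F - F) ^ 2 : M →ₘ[m] ℝ) x := by
    intro s hs hss
    filter_upwards [H751.PP_ae h.ker hs hF, sq_ae ((sob m).P s F - F), sub_ae ((sob m).P s F) F]
      with x h1 h2 h3
    rw [h2, h3]
    by_cases hx : x ∈ U
    · simp only [hg, Set.indicator_of_mem hx]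
      have h4 := hc x hx s hs hss
      have h5 : (sob m).P s F x ≤ c := by rw [h1]; exact h4
      rw [← sq_abs ((sob m).P s F x - F x)]
      refine pow_le_pow_left₀ (le_max_right _ _) (max_le ?_ (abs_nonneg _)) 2
      rw [abs_sub_comm]
      exact (by linarith : F x - c ≤ F x - (sob m).P s F x).trans (le_abs_self _)
    · simp only [hg, Set.indicator_of_notMem hx]
      exact sq_nonneg _
  have hsq : ∀ s, 0 < s → MemLp (((sob m).P s F - F) ^ 2 : M →ₘ[m] ℝ) 1 m := fun s hs =>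
    mem_sq (mem_sub (H.mem s hs.le F hF) hF)
  have hgi : Integrable g m := by
    refine (int_of_mem (hsq s₀ hs₀)).mono' hgm ?_
    filter_upwards [key s₀ hs₀ le_rfl] with x hx
    rw [Real.norm_of_nonneg (hg0 x)]
    exact hx
  have hle : ∫ x, g x ∂m ≤ 0 := by
    have hlim' : Tendsto (fun t => I (((sob m).P t F - F) ^ 2)) (𝓝[>] (0 : ℝ)) (𝓝 0) :=
      hlim.mono_left (nhdsWithin_mono _ Set.Ioi_subset_Ici_self)
    refine ge_of_tendsto hlim' ?_
    filter_upwards [Ioc_mem_nhdsGT hs₀] with s hs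
    exact integral_mono_ae hgi (int_of_mem (hsq s hs.1)) (key s hs.1 hs.2)
  have h0 : ∫ x, g x ∂m = 0 := le_antisymm hle (integral_nonneg hg0)
  have h1 := (integral_eq_zero_iff_of_nonneg hg0 hgi).1 h0
  filter_upwards [h1] with x hx hxU
  have h2 : g x = 0 := hx
  simp only [hg, Set.indicator_of_mem hxU] at h2
  have h3 : max (F x - c) 0 = 0 := pow_eq_zero_iff (two_ne_zero) |>.1 h2
  have h4 := le_max_left (F x - c) 0
  rw [h3] at h4
  linarith

/-- `|Δu_c| ≤ √n |c| η/ρ` almost everywhere on `ball o (R ρ)` -/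
theorem lap_ae (h : Env m n K o A p) (hu : Cfg m n K o p R Q η ρ u uu) (hη : 0 ≤ η)
    (hQ : 0 < Q) (c : E n) :
    ∀ᵐ x ∂m, x ∈ ball o (R * ρ) → |(sob m).lap (uc u c) x| ≤ √n * ‖c‖ * (η / ρ) := by
  obtain ⟨_, hC, hBE, _, hn⟩ := H924.facts h.hyp
  have hT := H924.uc_testI h hu c
  have hL := hC.testI_lap_A' hT
  have hρ := hu.ρ_pos
  have h2 : MemLp ((sob m).lap (uc u c) ^ 2 : M →ₘ[m] ℝ) 2 m := by
    rw [sq]
    exact mem_mul_top hL.2 (hC.memLp _ hL.1)
  have := ae_le_of_PP h h2 (measurableSet_ball (x := o) (ε := R * ρ)) (s₀ := Q * ρ ^ 2)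
    (c := (√n * ‖c‖ * (η / ρ)) ^ 2) (by positivity) (fun x hx s hs hs' => H924.uc_lap1 h hu c hx hs hs')
  filter_upwards [this, sq_ae ((sob m).lap (uc u c))] with x h1 h3 hx
  have h4 := h1 hx
  rw [h3] at h4
  exact abs_le_of_sq_le_sq h4 (by positivity)

/-- `u_c` is Lipschitz, with the constant of `Cfg.grad` -/
theorem uc_lip (h : Env m n K o A p) (hu : Cfg m n K o p R Q η ρ u uu) (c : E n) (x z : M) :
    |⟪c, uu x⟫_ℝ - ⟪c, uu z⟫_ℝ| ≤ (2 * √n * ‖c‖ + 1) * dist x z := by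
  obtain ⟨_, hC, hBE, _, hn⟩ := H924.facts h.hyp
  have hfull := h.hyp.full
  have hW : uc u c ∈ (sob m).W := (hC.test_A (H924.uc_testI h hu c).1).1
  obtain ⟨v, hv, hv2⟩ := exists_lip_rep (H751.env_std h).rcd.sobolev_to_lipschitz hW
    (G := 2 * √n * ‖c‖ + 1) (by positivity) (by
      filter_upwards [H924.uc_grad h hu c] with x hx
      refine hx.trans (pow_le_pow_left₀ (by positivity) (by linarith) 2))
  have hvc : Continuous v := by
    refine (LipschitzWith.of_dist_le_mul (K := ⟨2 * √n * ‖c‖ + 1, by positivity⟩)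
      fun x y => ?_).continuous
    rw [Real.dist_eq]
    exact hv x y
  have huc : Continuous fun z => ⟪c, uu z⟫_ℝ := continuous_const.inner hu.cont
  have hae : (fun z => ⟪c, uu z⟫_ℝ) =ᵐ[m] v := by
    filter_upwards [H751.uc_ae hu.rep c, hv2] with x h1 h2
    rw [← h1, h2]
  have heq : (fun z => ⟪c, uu z⟫_ℝ) = v := Continuous.ae_eq_iff_eq m huc hvc |>.1 hae
  have h1 : ⟪c, uu x⟫_ℝ = v x := congrFun heq x
  have h2 : ⟪c, uu z⟫_ℝ = v z := congrFun heq z
  rw [h1, h2]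
  exact hv x z

/-- local Lipschitz bound of the representative to a gradient bound -/
theorem grad_of_lip (h : Env m n K o A p) (hu : Cfg m n K o p R Q η ρ u uu) (c : E n) {y : M}
    {a L : ℝ} (hL : 0 ≤ L)
    (hlip : ∀ z z', dist y z < a → dist y z' < a → |⟪c, uu z⟫_ℝ - ⟪c, uu z'⟫_ℝ| ≤ L * dist z z') :
    ∀ᵐ x ∂m, dist y x < a → (sob m).Γ (uc u c) (uc u c) x ≤ L ^ 2 := by
  classical
  obtain ⟨_, hC, hBE, _, hn⟩ := H924.facts h.hyp
  have hW : uc u c ∈ (sob m).W := (hC.test_A (H924.uc_testI h hu c).1).1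
  have hfin := (H751.env_std h).hfin
  set cf : M → ℝ := fun x => if dist y x < a then L else 2 * √n * ‖c‖ + 1 with hcf
  have h1 := Γ_le_of_bound hfin hC.toIsDir hW (u := fun z => ⟪c, uu z⟫_ℝ)
    (H751.uc_ae hu.rep c) (fun x₀ r => ⟨2 * √n * ‖c‖ + 1, fun x _ y _ => uc_lip h hu c x y⟩)
    (c := cf) (fun x => by
      simp only [hcf]
      split_ifs
      · exact hL
      · positivity) (fun x => by
      by_cases hx : dist y x < a
      · have ho : {z : M | dist y z < a} ∈ 𝓝 x :=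
          (isOpen_lt (continuous_const.dist continuous_id) continuous_const).mem_nhds hx
        filter_upwards [ho] with z hz
        simp only [hcf, if_pos hx]
        exact hlip z x hz hx
      · filter_upwards with z
        simp only [hcf, if_neg hx]
        exact uc_lip h hu c z x)
  filter_upwards [h1] with x hx hxa
  simp only [hcf, if_pos hxa] at hx
  exact hx

/-- the constant of the radial gradient bound -/
noncomputable def cB (n : ℕ) (K L₁ : ℝ) : ℝ :=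
  √(2 * Real.exp (2 * |K|) * Real.exp (|K| + 1) * (L₁ ^ 2 / 2 + n))

/-- `|∇b_{y,t}| ≤ cB √t` on the ball of radius `L₁ √t` -/
theorem grad_bb_le (h : Env m n K o A p) (y : M) {t L₁ : ℝ} (ht : 0 ≤ t) (ht1 : t ≤ 1)
    (hL₁ : 0 ≤ L₁) :
    ∀ᵐ x ∂m, dist y x < L₁ * √t → (sob m).Γ (bb m y t) (bb m y t) x ≤ (cB n K L₁ * √t) ^ 2 := by
  obtain ⟨_, hC, hBE, hsf, hn⟩ := H924.facts h.hyp
  have hV := H254.vx_of h.hyp y
  filter_upwards [hV.Γb_le hC (hC.bei hn hBE) ht ht1, hV.wd] with x h1 h2 hx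
  unfold H71.bb
  refine h1.trans ?_
  have h3 : gg y x ≤ L₁ ^ 2 * t / 2 := by
    unfold gg
    have h4 : dist x y ≤ L₁ * √t := by rw [dist_comm]; exact hx.le
    have h5 : dist x y ^ 2 ≤ (L₁ * √t) ^ 2 := pow_le_pow_left₀ dist_nonneg h4 2
    rw [mul_pow, Real.sq_sqrt ht] at h5
    first
      | linarith
      | (rw [dist_comm]; linarith)
  unfold cB
  rw [mul_pow, Real.sq_sqrt ht, Real.sq_sqrt (by positivity)]
  have h6 : cl m (ww (1 / 2) y) x + 1 / 2 + n * t ≤ (L₁ ^ 2 / 2 + n) * t := by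
    have := h2.2.1
    nlinarith
  calc 2 * Real.exp (2 * |K|) * Real.exp (|K| + 1) * (cl m (ww (1 / 2) y) x + 1 / 2 + n * t)
      ≤ 2 * Real.exp (2 * |K|) * Real.exp (|K| + 1) * ((L₁ ^ 2 / 2 + n) * t) :=
        mul_le_mul_of_nonneg_left h6 (by positivity)
    _ = _ := by ring

/-- **UB**: bounds of `u_v` on the support of the radial weights at `(y,t)` -/
theorem ub_of (h : Env m n K o A p) (hu : Cfg m n K o p R Q η ρ u uu) (hη : 0 ≤ η) (hQ : 0 < Q)
    {y : M} {t : ℝ} (ht : 0 < t) (ht1 : t ≤ 1) {v : E n} {L₁ N ℓ : ℝ} (hL₁ : 1 ≤ L₁)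
    (hN : 0 ≤ N) (hℓ0 : 0 ≤ ℓ)
    (hlip : ∀ z z', dist y z < L₁ * √t → dist y z' < L₁ * √t →
      |⟪v, uu z⟫_ℝ - ⟪v, uu z'⟫_ℝ| ≤ 2 * N * dist z z')
    (hin : ∀ z, dist y z < L₁ * √t → z ∈ ball o (R * ρ))
    (hℓ : √n * ‖v‖ * (η / ρ) ≤ ℓ * (2 * L₁ * N) / √t) {P0 P1 P2 : M →ₘ[m] ℝ}
    (hs : ∀ᵐ x ∂m, (P0 x ≠ 0 ∨ P1 x ≠ 0 ∨ P2 x ≠ 0) → dist y x < L₁ * √t) :
    H363.UB (sob m) (bb m y t) (uc u v) P0 P1 P2 (√t) (2 * L₁ * N) (cB n K L₁) ℓ ⟪v, uu y⟫_ℝ := by
  obtain ⟨_, hC, hBE, hsf, hn⟩ := H924.facts h.hyp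
  have hW : uc u v ∈ (sob m).W := (hC.test_A (H924.uc_testI h hu v).1).1
  have hV := H254.vx_of h.hyp y
  have hbW : bb m y t ∈ (sob m).W := hC.toIsDir.P_mem ht (hC.memLp _ hV.mem)
  have hst : 0 < √t := Real.sqrt_pos.2 ht
  have hG := grad_of_lip h hu v (y := y) (a := L₁ * √t) (L := 2 * N) (by positivity) hlip
  have hy0 : dist y y < L₁ * √t := by rw [dist_self]; positivity
  have hcB : 0 ≤ cB n K L₁ := Real.sqrt_nonneg _
  refine ⟨by positivity, hcB, hℓ0, ?_, ?_, ?_, ?_⟩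
  · filter_upwards [hs, H751.uc_ae hu.rep v] with x h1 h2 hx
    rw [h2]
    have h3 := h1 hx
    refine (hlip x y h3 hy0).trans ?_
    have h4 : dist x y ≤ L₁ * √t := by rw [dist_comm]; exact h3.le
    calc 2 * N * dist x y ≤ 2 * N * (L₁ * √t) := mul_le_mul_of_nonneg_left h4 (by positivity)
      _ = 2 * L₁ * N * √t := by ring
  · filter_upwards [hs, hG] with x h1 h2 hx
    refine (h2 (h1 hx)).trans (pow_le_pow_left₀ (by positivity) ?_ 2)
    nlinarith
  · filter_upwards [hs, hG, grad_bb_le h y ht.le ht1 (by linarith : 0 ≤ L₁),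
      hC.toIsDir.Γ_abs_ae hbW hW] with x h1 h2 h3 h4 hx
    have h5 := h1 hx
    refine h4.trans ?_
    have h6 : √((sob m).Γ (bb m y t) (bb m y t) x) ≤ cB n K L₁ * √t := by
      rw [← Real.sqrt_sq (show 0 ≤ cB n K L₁ * √t by positivity)]
      exact Real.sqrt_le_sqrt (h3 h5)
    have h7 : √((sob m).Γ (uc u v) (uc u v) x) ≤ 2 * N := by
      rw [← Real.sqrt_sq (show 0 ≤ 2 * N by positivity)]
      exact Real.sqrt_le_sqrt (h2 h5)
    calc √((sob m).Γ (bb m y t) (bb m y t) x) * √((sob m).Γ (uc u v) (uc u v) x)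
        ≤ (cB n K L₁ * √t) * (2 * N) := mul_le_mul h6 h7 (Real.sqrt_nonneg _) (by positivity)
      _ ≤ 2 * L₁ * N * cB n K L₁ * √t := by
        have : 0 ≤ cB n K L₁ * √t * N := by positivity
        nlinarith
  · filter_upwards [hs, lap_ae h hu hη hQ v] with x h1 h2 hx
    exact (h2 (hin x (h1 hx))).trans hℓ

end Vale.Agent.P242.H771
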